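import Vale.Agent.P207.H267.Sep

/-!
P207, all dimensions (line N4), row BETA (step 8): from the four point function `β v (z, u)`
(`z` the affine coordinate in the stable leaf, `u` the affine coordinate in the unstable leaf) to the
tensor `P`: the holonomy is `K⁻¹ ∂_z β`, its `z`-derivative at `0` is exactly quadratic in `u`, and
the quadratic tensor is parallel along the stable leaves.
-/

set_option maxSynthPendingDepth 3

open Set Filter Topology Metric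
open scoped ContDiff

noncomputable section

namespace Vale.Agent.P207.H267

section Calc

variable {F G H : Type*} [NormedAddCommGroup F] [NormedSpace ℝ F] [NormedAddCommGroup G]
  [NormedSpace ℝ G] [NormedAddCommGroup H] [NormedSpace ℝ H]

theorem norm_iter_comp_left (A : G →L[ℝ] H) {f : F → G} {x : F} (hf : ContDiffAt ℝ ∞ f x) (k : ℕ) :
    ‖iteratedFDeriv ℝ k (fun y => A (f y)) x‖ ≤ ‖A‖ * ‖iteratedFDeriv ℝ k f x‖ := by
  have h1 := A.iteratedFDeriv_comp_left hf (i := k) (by exact_mod_cast le_top)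
  have h2 : (fun y => A (f y)) = A ∘ f := rfl
  rw [h2, h1]
  exact ContinuousLinearMap.norm_compContinuousMultilinearMap_le _ _

theorem fderiv_lip {f : F → G} {s : Set F} (hs : IsOpen s) (hc : Convex ℝ s) {M : ℝ}
    (hf : ContDiffOn ℝ ∞ f s) (hM : ∀ x ∈ s, ‖iteratedFDeriv ℝ 2 f x‖ ≤ M) {x y : F} (hx : x ∈ s)
    (hy : y ∈ s) : ‖fderiv ℝ f y - fderiv ℝ f x‖ ≤ M * ‖y - x‖ := by
  have h1 : ContDiffOn ℝ ∞ (fderiv ℝ f) s := hf.fderiv_of_isOpen hs (by simp)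
  refine hc.norm_image_sub_le_of_norm_fderiv_le (𝕜 := ℝ) (f := fderiv ℝ f)
    (fun z hz => (h1.contDiffAt (hs.mem_nhds hz)).differentiableAt (by simp)) (fun z hz => ?_) hx hy
  have h2 : ‖iteratedFDeriv ℝ 1 (fderiv ℝ f) z‖ = ‖iteratedFDeriv ℝ 2 f z‖ :=
    norm_iteratedFDeriv_fderiv
  rw [norm_iteratedFDeriv_one] at h2
  rw [h2]
  exact hM z hz

/-- second differences -/
theorem sd_le {f : F → G} {s : Set F} (hc : Convex ℝ s) {M : ℝ}
    (hd : ∀ x ∈ s, DifferentiableAt ℝ f x)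
    (hl : ∀ x ∈ s, ∀ y ∈ s, ‖fderiv ℝ f y - fderiv ℝ f x‖ ≤ M * ‖y - x‖) {x h : F} (hx : x ∈ s)
    (hp : x + h ∈ s) (hm : x - h ∈ s) : ‖f (x + h) + f (x - h) - (2 : ℝ) • f x‖ ≤ 2 * M * ‖h‖ ^ 2 := by
  have hmem : ∀ t ∈ Icc (0 : ℝ) 1, x + t • h ∈ s := by
    intro t ht
    have : x + t • h = (1 - t) • x + t • (x + h) := by module
    rw [this]
    exact hc hx hp (by linarith [ht.2]) ht.1 (by ring)
  have hmem' : ∀ t ∈ Icc (0 : ℝ) 1, x - t • h ∈ s := by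
    intro t ht
    have : x - t • h = (1 - t) • x + t • (x - h) := by module
    rw [this]
    exact hc hx hm (by linarith [ht.2]) ht.1 (by ring)
  set g : ℝ → G := fun t => f (x + t • h) + f (x - t • h) with hg
  have hgd : ∀ t ∈ Icc (0 : ℝ) 1, HasDerivWithinAt g
      (fderiv ℝ f (x + t • h) h + fderiv ℝ f (x - t • h) (-h)) (Icc 0 1) t := by
    intro t ht
    have e0 : HasDerivAt (fun t : ℝ => t • h) h t := by
      simpa using (hasDerivAt_id t).smul_const h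
    have e1 : HasDerivAt (fun t : ℝ => x + t • h) h t := e0.const_add x
    have e2 : HasDerivAt (fun t : ℝ => x - t • h) (-h) t := e0.const_sub x
    exact (((hd _ (hmem t ht)).hasFDerivAt.comp_hasDerivAt t e1).add
      ((hd _ (hmem' t ht)).hasFDerivAt.comp_hasDerivAt t e2)).hasDerivWithinAt
  have hb : ∀ t ∈ Icc (0 : ℝ) 1,
      ‖fderiv ℝ f (x + t • h) h + fderiv ℝ f (x - t • h) (-h)‖ ≤ 2 * M * ‖h‖ ^ 2 := by
    intro t ht
    have e : fderiv ℝ f (x + t • h) h + fderiv ℝ f (x - t • h) (-h) =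
        (fderiv ℝ f (x + t • h) - fderiv ℝ f (x - t • h)) h := by
      rw [map_neg, ← sub_eq_add_neg, sub_apply]
    rw [e]
    have h1 := hl _ (hmem' t ht) _ (hmem t ht)
    have e2 : x + t • h - (x - t • h) = (2 * t) • h := by module
    rw [e2, norm_smul, Real.norm_of_nonneg (by linarith [ht.1])] at h1
    have hM0 : 0 ≤ M * (2 * t * ‖h‖) := (norm_nonneg _).trans h1
    have hh := norm_nonneg h
    calc ‖(fderiv ℝ f (x + t • h) - fderiv ℝ f (x - t • h)) h‖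
        ≤ ‖fderiv ℝ f (x + t • h) - fderiv ℝ f (x - t • h)‖ * ‖h‖ :=
          ContinuousLinearMap.le_opNorm _ _
      _ ≤ M * (2 * t * ‖h‖) * ‖h‖ := mul_le_mul_of_nonneg_right h1 hh
      _ ≤ 2 * M * ‖h‖ ^ 2 := by
          rcases eq_or_lt_of_le ht.1 with h0 | h0
          · rw [← h0]
            have hMM := hl _ hx _ hp
            rw [add_sub_cancel_left] at hMM
            have hM1 : 0 ≤ M * ‖h‖ := (norm_nonneg _).trans hMM
            nlinarith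
          · have hM1 : 0 ≤ M * ‖h‖ := by
              have : 0 ≤ (2 * t) * (M * ‖h‖) := by linarith
              exact nonneg_of_mul_nonneg_right this (by linarith)
            have h3 : t * (M * ‖h‖ * ‖h‖) ≤ 1 * (M * ‖h‖ * ‖h‖) :=
              mul_le_mul_of_nonneg_right ht.2 (mul_nonneg hM1 hh)
            nlinarith
  have := (convex_Icc (0 : ℝ) 1).norm_image_sub_le_of_norm_hasDerivWithin_le hgd hb
    (left_mem_Icc.mpr zero_le_one) (right_mem_Icc.mpr zero_le_one)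
  simpa [hg, two_smul] using this

end Calc

/-- The four point function in the affine coordinates. -/
structure BetaD (V E E' : Type*) [NormedAddCommGroup E] [NormedSpace ℝ E]
    [NormedAddCommGroup E'] [NormedSpace ℝ E'] extends Cocycle V E E' where
  ψ_surj : Function.Surjective ψ
  β : V → E' × E → ℝ
  M : ℕ → ℝ
  smooth : ∀ v, ContDiffOn ℝ ∞ (β v) (ball 0 r)
  bound : ∀ v k, ∀ p ∈ ball (0 : E' × E) r, ‖iteratedFDeriv ℝ k (β v) p‖ ≤ M k
  zero_left : ∀ v u, ‖u‖ < r → β v (0, u) = 0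
  zero_right : ∀ v z, ‖z‖ < r → β v (z, 0) = 0
  equi : ∀ v z u, ‖z‖ < r → ‖u‖ < r → ‖(L' v).symm z‖ < r →
    β v (z, u) = β (ψ v) ((L' v).symm z, (L v).symm u)
  /-- the mixed derivative -/
  K : V → E ≃L[ℝ] (E' →L[ℝ] ℝ)
  K_eq : ∀ v, fderiv ℝ (fun u => fderiv ℝ (fun z => β v (z, u)) 0) 0 = (K v : E →L[ℝ] E' →L[ℝ] ℝ)
  M0 : ℝ
  K_symm_le : ∀ v, ‖((K v).symm : (E' →L[ℝ] ℝ) →L[ℝ] E)‖ ≤ M0

/-- The base change along the stable leaf: `mv v z` is the frame `hol ξ v`, where `z` is the affine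
coordinate of `ξ`; `g v z` is the holonomy from the affine chart of `v` to the one of `mv v z`. -/
structure BaseD (V E E' : Type*) [NormedAddCommGroup E] [NormedSpace ℝ E]
    [NormedAddCommGroup E'] [NormedSpace ℝ E'] extends BetaD V E E' where
  ρ : ℝ
  ρ_pos : 0 < ρ
  ρ_le : ρ ≤ r
  k0 : ℝ
  mv : V → E' → V
  κ : V → E' → E ≃L[ℝ] E
  κ' : V → E' → E' ≃L[ℝ] E'
  κ_le : ∀ v z, ‖z‖ < ρ → ‖(κ v z : E →L[ℝ] E)‖ ≤ k0
  κ_symm_le : ∀ v z, ‖z‖ < ρ → ‖((κ v z).symm : E →L[ℝ] E)‖ ≤ k0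
  κ'_le : ∀ v z, ‖z‖ < ρ → ‖(κ' v z : E' →L[ℝ] E')‖ ≤ k0
  g : V → E' → E → E
  g_zero : ∀ v z, ‖z‖ < ρ → g v z 0 = 0
  g_deriv : ∀ v z, ‖z‖ < ρ → HasFDerivAt (g v z) (κ v z : E →L[ℝ] E) 0
  g_lt : ∀ v z u, ‖z‖ < ρ → ‖u‖ < ρ → ‖g v z u‖ < r
  base : ∀ v z₁, ‖z₁‖ < ρ → ∀ᶠ z in 𝓝 z₁, ∀ u, ‖u‖ < ρ →
    β (mv v z₁) (κ' v z₁ (z - z₁), g v z₁ u) = β v (z, u) - β v (z₁, u)
  flow_mv : ∀ v z, ‖z‖ < ρ → ψ (mv v (L' v z)) = mv (ψ v) z
  flow_κ : ∀ v z, ‖z‖ < ρ → ∀ u, L (mv v (L' v z)) (κ (ψ v) z u) = κ v (L' v z) (L v u)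
  flow_κ' : ∀ v z, ‖z‖ < ρ → ∀ α, L' (mv v (L' v z)) (κ' (ψ v) z α) = κ' v (L' v z) (L' v α)
  /-- the holonomy commutes with the flow, on the whole leaf -/
  flow_g : ∀ v u, ∀ᶠ z in 𝓝 (0 : E'), (κ v z).symm (g v z u) =
    L v ((κ (ψ v) ((L' v).symm z)).symm (g (ψ v) ((L' v).symm z) ((L v).symm u)))

namespace BetaD

variable {V E E' : Type*} [NormedAddCommGroup E] [NormedSpace ℝ E]
  [NormedAddCommGroup E'] [NormedSpace ℝ E'] (D : BetaD V E E')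

/-- restriction of a covector to the first factor -/
def pl : (E' × E →L[ℝ] ℝ) →L[ℝ] (E' →L[ℝ] ℝ) :=
  (ContinuousLinearMap.compL ℝ E' (E' × E) ℝ).flip (ContinuousLinearMap.inl ℝ E' E)

/-- restriction to the second factor -/
def pr {W : Type*} [NormedAddCommGroup W] [NormedSpace ℝ W] : (E' × E →L[ℝ] W) →L[ℝ] (E →L[ℝ] W) :=
  (ContinuousLinearMap.compL ℝ E (E' × E) W).flip (ContinuousLinearMap.inr ℝ E' E)

@[simp] theorem pl_apply (A : E' × E →L[ℝ] ℝ) (z : E') : pl (E := E) A z = A (z, 0) := rfl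

@[simp] theorem pr_apply {W : Type*} [NormedAddCommGroup W] [NormedSpace ℝ W]
    (A : E' × E →L[ℝ] W) (u : E) : pr (E' := E') A u = A (0, u) := rfl

/-- the `z`-derivative -/
def Ph (v : V) (p : E' × E) : E' →L[ℝ] ℝ := pl (fderiv ℝ (D.β v) p)

/-- the `u`-derivative -/
def Ps (v : V) (p : E' × E) : E →L[ℝ] ℝ := pr (fderiv ℝ (D.β v) p)

/-- the mixed derivative -/
def D1 (v : V) (p : E' × E) : E →L[ℝ] E' →L[ℝ] ℝ := pr (fderiv ℝ (D.Ph v) p)

/-- the derivative of the holonomy -/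
def cc (v : V) (p : E' × E) : E →L[ℝ] E := ((D.K v).symm : (E' →L[ℝ] ℝ) →L[ℝ] E) ∘L D.D1 v p

def C (v : V) (u : E) (z : E') : E →L[ℝ] E := D.cc v (z, u)

theorem mem_iff {p : E' × E} {r : ℝ} : p ∈ ball (0 : E' × E) r ↔ ‖p.1‖ < r ∧ ‖p.2‖ < r := by
  rw [mem_ball_zero_iff, Prod.norm_def, max_lt_iff]

theorem at_smooth {v : V} {p : E' × E} (hp : p ∈ ball (0 : E' × E) D.r) :
    ContDiffAt ℝ ∞ (D.β v) p := (D.smooth v).contDiffAt (isOpen_ball.mem_nhds hp)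

theorem Ph_smooth (v : V) : ContDiffOn ℝ ∞ (D.Ph v) (ball 0 D.r) :=
  pl.contDiff.comp_contDiffOn ((D.smooth v).fderiv_of_isOpen isOpen_ball (by simp))

theorem Ps_smooth (v : V) : ContDiffOn ℝ ∞ (D.Ps v) (ball 0 D.r) :=
  (pr (E := E) (E' := E') (W := ℝ)).contDiff.comp_contDiffOn
    ((D.smooth v).fderiv_of_isOpen isOpen_ball (by simp))

theorem D1_smooth (v : V) : ContDiffOn ℝ ∞ (D.D1 v) (ball 0 D.r) :=
  (pr (E := E) (E' := E') (W := E' →L[ℝ] ℝ)).contDiff.comp_contDiffOn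
    ((D.Ph_smooth v).fderiv_of_isOpen isOpen_ball (by simp))

theorem cc_smooth (v : V) : ContDiffOn ℝ ∞ (D.cc v) (ball 0 D.r) :=
  (ContinuousLinearMap.compL ℝ E (E' →L[ℝ] ℝ) E
    ((D.K v).symm : (E' →L[ℝ] ℝ) →L[ℝ] E)).contDiff.comp_contDiffOn (D.D1_smooth v)

/-- the constants -/
def A (k : ℕ) : ℝ := D.M0 * (‖pr (E := E) (E' := E') (W := E' →L[ℝ] ℝ)‖ *
  (‖pl (E := E) (E' := E')‖ * D.M (k + 2)))

theorem M0_nonneg (v : V) : 0 ≤ D.M0 := (norm_nonneg _).trans (D.K_symm_le v)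

theorem Ph_bound {v : V} (k : ℕ) {p : E' × E} (hp : p ∈ ball (0 : E' × E) D.r) :
    ‖iteratedFDeriv ℝ k (D.Ph v) p‖ ≤ ‖pl (E := E) (E' := E')‖ * D.M (k + 1) := by
  have h1 : ContDiffAt ℝ ∞ (fderiv ℝ (D.β v)) p :=
    ((D.smooth v).fderiv_of_isOpen isOpen_ball (by simp)).contDiffAt (isOpen_ball.mem_nhds hp)
  have h2 := norm_iter_comp_left (pl (E := E) (E' := E')) h1 k
  have h3 : ‖iteratedFDeriv ℝ k (fderiv ℝ (D.β v)) p‖ ≤ D.M (k + 1) := by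
    rw [norm_iteratedFDeriv_fderiv]; exact D.bound v (k + 1) p hp
  exact h2.trans (mul_le_mul_of_nonneg_left h3 (norm_nonneg _))

theorem Ps_bound {v : V} (k : ℕ) {p : E' × E} (hp : p ∈ ball (0 : E' × E) D.r) :
    ‖iteratedFDeriv ℝ k (D.Ps v) p‖ ≤ ‖pr (E := E) (E' := E') (W := ℝ)‖ * D.M (k + 1) := by
  have h1 : ContDiffAt ℝ ∞ (fderiv ℝ (D.β v)) p :=
    ((D.smooth v).fderiv_of_isOpen isOpen_ball (by simp)).contDiffAt (isOpen_ball.mem_nhds hp)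
  have h2 := norm_iter_comp_left (pr (E := E) (E' := E') (W := ℝ)) h1 k
  have h3 : ‖iteratedFDeriv ℝ k (fderiv ℝ (D.β v)) p‖ ≤ D.M (k + 1) := by
    rw [norm_iteratedFDeriv_fderiv]; exact D.bound v (k + 1) p hp
  exact h2.trans (mul_le_mul_of_nonneg_left h3 (norm_nonneg _))

theorem cc_bound {v : V} (k : ℕ) {p : E' × E} (hp : p ∈ ball (0 : E' × E) D.r) :
    ‖iteratedFDeriv ℝ k (D.cc v) p‖ ≤ D.A k := by
  have h1 : ContDiffAt ℝ ∞ (fderiv ℝ (D.Ph v)) p :=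
    ((D.Ph_smooth v).fderiv_of_isOpen isOpen_ball (by simp)).contDiffAt (isOpen_ball.mem_nhds hp)
  have h2 : ContDiffAt ℝ ∞ (D.D1 v) p := (D.D1_smooth v).contDiffAt (isOpen_ball.mem_nhds hp)
  set T := ContinuousLinearMap.compL ℝ E (E' →L[ℝ] ℝ) E
    ((D.K v).symm : (E' →L[ℝ] ℝ) →L[ℝ] E) with hT
  have hTn : ‖T‖ ≤ D.M0 := by
    refine ContinuousLinearMap.opNorm_le_bound _ (D.M0_nonneg v) fun S => ?_
    refine (ContinuousLinearMap.opNorm_comp_le _ _).trans ?_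
    exact mul_le_mul_of_nonneg_right (D.K_symm_le v) (norm_nonneg _)
  have h3 := norm_iter_comp_left T h2 k
  have h4 := norm_iter_comp_left (pr (E := E) (E' := E') (W := E' →L[ℝ] ℝ)) h1 k
  have h5 : ‖iteratedFDeriv ℝ k (fderiv ℝ (D.Ph v)) p‖ ≤
      ‖pl (E := E) (E' := E')‖ * D.M (k + 2) := by
    rw [norm_iteratedFDeriv_fderiv]; exact D.Ph_bound (k + 1) hp
  have h6 : ‖iteratedFDeriv ℝ k (D.D1 v) p‖ ≤ ‖pr (E := E) (E' := E') (W := E' →L[ℝ] ℝ)‖ *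
      (‖pl (E := E) (E' := E')‖ * D.M (k + 2)) :=
    h4.trans (mul_le_mul_of_nonneg_left h5 (norm_nonneg _))
  exact h3.trans (mul_le_mul hTn h6 (norm_nonneg _) (D.M0_nonneg v))

end BetaD

end Vale.Agent.P207.H267
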