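import Vale.Agent.P207.H267.Beta

/-!
P207, all dimensions (line N4), row BETA (step 8), proofs: BOTT, the formula of the holonomy, `P`.
-/

set_option maxSynthPendingDepth 3

open Set Filter Topology Metric
open scoped ContDiff

noncomputable section

namespace Vale.Agent.P207.H267

namespace BetaD

variable {V E E' : Type*} [NormedAddCommGroup E] [NormedSpace ℝ E]
  [NormedAddCommGroup E'] [NormedSpace ℝ E'] (D : BetaD V E E')

omit D in
theorem comp_left {W : Type*} [NormedAddCommGroup W] [NormedSpace ℝ W] {f : E' × E → W}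
    {f' : E' × E →L[ℝ] W} {z : E'} {u : E} (h : HasFDerivAt f f' (z, u)) :
    HasFDerivAt (fun z => f (z, u)) (f'.comp (ContinuousLinearMap.inl ℝ E' E)) z :=
  HasFDerivAt.comp (g := f) (f := fun z => (z, u)) z h (hasFDerivAt_prodMk_left z u)

omit D in
theorem comp_right {W : Type*} [NormedAddCommGroup W] [NormedSpace ℝ W] {f : E' × E → W}
    {f' : E' × E →L[ℝ] W} {z : E'} {u : E} (h : HasFDerivAt f f' (z, u)) :
    HasFDerivAt (fun u => f (z, u)) (f'.comp (ContinuousLinearMap.inr ℝ E' E)) u :=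
  HasFDerivAt.comp (g := f) (f := fun u => (z, u)) u h (hasFDerivAt_prodMk_right z u)

/-- one step of the flow on the pairs -/
def Lm (v : V) : E' × E →L[ℝ] E' × E :=
  (((D.L' v).symm : E' →L[ℝ] E').comp (ContinuousLinearMap.fst ℝ E' E)).prod
    (((D.L v).symm : E →L[ℝ] E).comp (ContinuousLinearMap.snd ℝ E' E))

@[simp] theorem Lm_apply (v : V) (p : E' × E) :
    D.Lm v p = ((D.L' v).symm p.1, (D.L v).symm p.2) := rfl

theorem L_lt {v : V} {u : E} (hu : ‖u‖ < D.r) : ‖(D.L v).symm u‖ < D.r := D.symm_lt v hu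

/-- the good set -/
theorem ev_good {v : V} {p : E' × E} (hp : p ∈ ball (0 : E' × E) D.r)
    (h2 : ‖(D.L' v).symm p.1‖ < D.r) :
    ∀ᶠ q in 𝓝 p, D.β v q = D.β (D.ψ v) (D.Lm v q) := by
  have h1 : ∀ᶠ q in 𝓝 p, q ∈ ball (0 : E' × E) D.r := isOpen_ball.mem_nhds hp
  have h3 : ∀ᶠ q : E' × E in 𝓝 p, ‖(D.L' v).symm q.1‖ < D.r := by
    have hc : Continuous fun q : E' × E => ‖(D.L' v).symm q.1‖ :=
      ((D.L' v).symm.continuous.comp continuous_fst).norm
    exact hc.continuousAt.eventually_lt continuousAt_const h2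
  filter_upwards [h1, h3] with q hq hq2
  rw [mem_iff] at hq
  exact D.equi v q.1 q.2 hq.1 hq.2 hq2

theorem Lm_mem {v : V} {p : E' × E} (hp : p ∈ ball (0 : E' × E) D.r)
    (h2 : ‖(D.L' v).symm p.1‖ < D.r) : D.Lm v p ∈ ball (0 : E' × E) D.r := by
  rw [mem_iff] at hp ⊢
  exact ⟨h2, D.L_lt hp.2⟩

theorem fderiv_equi {v : V} {p : E' × E} (hp : p ∈ ball (0 : E' × E) D.r)
    (h2 : ‖(D.L' v).symm p.1‖ < D.r) :
    fderiv ℝ (D.β v) p = (fderiv ℝ (D.β (D.ψ v)) (D.Lm v p)).comp (D.Lm v) := by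
  have h1 := D.ev_good hp h2
  have hd : HasFDerivAt (D.β (D.ψ v)) (fderiv ℝ (D.β (D.ψ v)) (D.Lm v p)) (D.Lm v p) :=
    ((D.at_smooth (D.Lm_mem hp h2)).differentiableAt (by simp)).hasFDerivAt
  rw [Filter.EventuallyEq.fderiv_eq h1]
  exact (hd.comp p (D.Lm v).hasFDerivAt).fderiv

theorem Ph_equi {v : V} {p : E' × E} (hp : p ∈ ball (0 : E' × E) D.r)
    (h2 : ‖(D.L' v).symm p.1‖ < D.r) :
    D.Ph v p = (D.Ph (D.ψ v) (D.Lm v p)).comp ((D.L' v).symm : E' →L[ℝ] E') := by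
  ext z
  simp only [Ph, pl_apply, ContinuousLinearMap.comp_apply, ContinuousLinearEquiv.coe_coe]
  rw [D.fderiv_equi hp h2]
  simp

theorem Ps_equi {v : V} {p : E' × E} (hp : p ∈ ball (0 : E' × E) D.r)
    (h2 : ‖(D.L' v).symm p.1‖ < D.r) :
    D.Ps v p = (D.Ps (D.ψ v) (D.Lm v p)).comp ((D.L v).symm : E →L[ℝ] E) := by
  ext z
  simp only [Ps, pr_apply, ContinuousLinearMap.comp_apply, ContinuousLinearEquiv.coe_coe]
  rw [D.fderiv_equi hp h2]
  simp

theorem Ph_diff {v : V} {p : E' × E} (hp : p ∈ ball (0 : E' × E) D.r) :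
    HasFDerivAt (D.Ph v) (fderiv ℝ (D.Ph v) p) p :=
  (((D.Ph_smooth v).contDiffAt (isOpen_ball.mem_nhds hp)).differentiableAt (by simp)).hasFDerivAt

theorem Ps_diff {v : V} {p : E' × E} (hp : p ∈ ball (0 : E' × E) D.r) :
    HasFDerivAt (D.Ps v) (fderiv ℝ (D.Ps v) p) p :=
  (((D.Ps_smooth v).contDiffAt (isOpen_ball.mem_nhds hp)).differentiableAt (by simp)).hasFDerivAt

theorem D1_equi {v : V} {p : E' × E} (hp : p ∈ ball (0 : E' × E) D.r)
    (h2 : ‖(D.L' v).symm p.1‖ < D.r) (w : E) :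
    D.D1 v p w = (D.D1 (D.ψ v) (D.Lm v p) ((D.L v).symm w)).comp
      ((D.L' v).symm : E' →L[ℝ] E') := by
  have hev : ∀ᶠ q in 𝓝 p, D.Ph v q =
      (D.Ph (D.ψ v) (D.Lm v q)).comp ((D.L' v).symm : E' →L[ℝ] E') := by
    have h1 : ∀ᶠ q in 𝓝 p, q ∈ ball (0 : E' × E) D.r := isOpen_ball.mem_nhds hp
    have h3 : ∀ᶠ q : E' × E in 𝓝 p, ‖(D.L' v).symm q.1‖ < D.r := by
      have hc : Continuous fun q : E' × E => ‖(D.L' v).symm q.1‖ :=
        ((D.L' v).symm.continuous.comp continuous_fst).norm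
      exact hc.continuousAt.eventually_lt continuousAt_const h2
    filter_upwards [h1, h3] with q hq hq2
    exact D.Ph_equi hq hq2
  set T : (E' →L[ℝ] ℝ) →L[ℝ] (E' →L[ℝ] ℝ) :=
    (ContinuousLinearMap.compL ℝ E' E' ℝ).flip ((D.L' v).symm : E' →L[ℝ] E') with hT
  have hd := (T.hasFDerivAt).comp p ((D.Ph_diff (v := D.ψ v) (D.Lm_mem hp h2)).comp p (D.Lm v).hasFDerivAt)
  have h5 : HasFDerivAt (D.Ph v) _ p := hd.congr_of_eventuallyEq hev
  have h6 := (D.Ph_diff hp).unique h5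
  have h7 : D.D1 v p w = fderiv ℝ (D.Ph v) p (0, w) := rfl
  have h8 : D.D1 (D.ψ v) (D.Lm v p) ((D.L v).symm w) =
      fderiv ℝ (D.Ph (D.ψ v)) (D.Lm v p) (0, (D.L v).symm w) := rfl
  rw [h7, h8, h6]
  simp only [ContinuousLinearMap.comp_apply, Lm_apply, map_zero]
  rfl

/-- `K` is the mixed derivative at `0` -/
theorem D1_zero (v : V) : D.D1 v 0 = (D.K v : E →L[ℝ] E' →L[ℝ] ℝ) := by
  have hr := D.r_pos
  have h0 : (0 : E' × E) ∈ ball (0 : E' × E) D.r := mem_ball_self hr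
  rw [← D.K_eq v]
  have h1 : (fun u => fderiv ℝ (fun z => D.β v (z, u)) 0) =ᶠ[𝓝 0] fun u => D.Ph v (0, u) := by
    filter_upwards [ball_mem_nhds (0 : E) hr] with u hu
    have hu' : ‖u‖ < D.r := by simpa using hu
    have hm : ((0 : E'), u) ∈ ball (0 : E' × E) D.r := by
      rw [mem_iff]; exact ⟨by simpa using hr, hu'⟩
    have hd : HasFDerivAt (D.β v) (fderiv ℝ (D.β v) (0, u)) (0, u) :=
      ((D.at_smooth hm).differentiableAt (by simp)).hasFDerivAt
    exact (hd.comp (0 : E') (hasFDerivAt_prodMk_left (0 : E') u)).fderiv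
  rw [h1.fderiv_eq]
  have hd : HasFDerivAt (D.Ph v ∘ (fun u => ((0 : E'), u)))
      ((fderiv ℝ (D.Ph v) 0).comp (ContinuousLinearMap.inr ℝ E' E)) 0 :=
    (D.Ph_diff (v := v) h0).comp (0 : E) (hasFDerivAt_prodMk_right (0 : E') (0 : E))
  rw [show (fun u => D.Ph v (0, u)) = D.Ph v ∘ (fun u => ((0 : E'), u)) from rfl, hd.fderiv]
  rfl

theorem K_equi (v : V) (w : E) : D.K v w = (D.K (D.ψ v) ((D.L v).symm w)).comp
    ((D.L' v).symm : E' →L[ℝ] E') := by
  have hr := D.r_pos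
  have h0 : (0 : E' × E) ∈ ball (0 : E' × E) D.r := mem_ball_self hr
  have h := D.D1_equi (v := v) h0 (by simpa using hr) w
  have e : D.Lm v 0 = 0 := map_zero _
  rw [e, D1_zero, D1_zero] at h
  exact h

theorem lam_weight : D.Lam * D.lam ^ 2 < 1 := by
  have h1 := D.weight
  have h2 := D.lam_pos
  have h3 := D.lam_lt_one
  have h4 : 0 < D.Lam := one_pos.trans D.one_lt_Lam
  have h5 : (D.Lam * D.lam ^ 2) ^ 2 < 1 := by
    calc (D.Lam * D.lam ^ 2) ^ 2 = (D.Lam ^ 2 * D.lam ^ 3) * D.lam := by ring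
      _ < 1 * 1 := by
          refine mul_lt_mul'' h1 h3 (by positivity) h2.le
      _ = 1 := one_mul 1
  exact (pow_lt_one_iff_of_nonneg (by positivity) two_ne_zero).mp h5

/-- second differences of the `z`-derivative at `z = 0` -/
theorem Ph_sd (T : ℕ) : ∀ v u h, ‖u‖ < D.r → ‖u + h‖ < D.r → ‖u - h‖ < D.r →
    ‖D.Ph v (0, u + h) + D.Ph v (0, u - h) - (2 : ℝ) • D.Ph v (0, u)‖ ≤
      (D.Lam * D.lam ^ 2) ^ T * (2 * (‖pl (E := E) (E' := E')‖ * D.M 3) * ‖h‖ ^ 2) := by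
  have hr := D.r_pos
  have hmem : ∀ u : E, ‖u‖ < D.r → ((0 : E'), u) ∈ ball (0 : E' × E) D.r := fun u hu => by
    rw [mem_iff]; exact ⟨by simpa using hr, hu⟩
  induction T with
  | zero =>
    intro v u h hu hp hm
    rw [pow_zero, one_mul]
    have hconv : Convex ℝ (ball (0 : E' × E) D.r) := convex_ball _ _
    have hlip : ∀ x ∈ ball (0 : E' × E) D.r, ∀ y ∈ ball (0 : E' × E) D.r,
        ‖fderiv ℝ (D.Ph v) y - fderiv ℝ (D.Ph v) x‖ ≤
          (‖pl (E := E) (E' := E')‖ * D.M 3) * ‖y - x‖ := fun x hx y hy =>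
      fderiv_lip isOpen_ball hconv (D.Ph_smooth v) (fun z hz => D.Ph_bound 2 hz) hx hy
    have e1 : ((0 : E'), u) + (0, h) = (0, u + h) := by simp
    have e2 : ((0 : E'), u) - (0, h) = (0, u - h) := by simp
    have := sd_le (f := D.Ph v) hconv (fun x hx => (D.Ph_diff hx).differentiableAt) hlip
      (x := ((0 : E'), u)) (h := ((0 : E'), h)) (hmem u hu) (by rw [e1]; exact hmem _ hp)
      (by rw [e2]; exact hmem _ hm)
    rw [e1, e2] at this
    have e3 : ‖((0 : E'), h)‖ = ‖h‖ := by simp [Prod.norm_def]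
    rw [e3] at this
    exact this
  | succ T ih =>
    intro v u h hu hp hm
    have key : ∀ u : E, ‖u‖ < D.r → D.Ph v (0, u) =
        (D.Ph (D.ψ v) (0, (D.L v).symm u)).comp ((D.L' v).symm : E' →L[ℝ] E') := by
      intro u hu
      have h1 := D.Ph_equi (v := v) (hmem u hu) (by simpa using hr)
      simpa using h1
    rw [key _ hp, key _ hm, key _ hu, map_add, map_sub]
    have e : (D.Ph (D.ψ v) (0, (D.L v).symm u + (D.L v).symm h)).comp
          ((D.L' v).symm : E' →L[ℝ] E') +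
        (D.Ph (D.ψ v) (0, (D.L v).symm u - (D.L v).symm h)).comp ((D.L' v).symm : E' →L[ℝ] E') -
        (2 : ℝ) • (D.Ph (D.ψ v) (0, (D.L v).symm u)).comp ((D.L' v).symm : E' →L[ℝ] E') =
        (D.Ph (D.ψ v) (0, (D.L v).symm u + (D.L v).symm h) +
          D.Ph (D.ψ v) (0, (D.L v).symm u - (D.L v).symm h) -
          (2 : ℝ) • D.Ph (D.ψ v) (0, (D.L v).symm u)).comp ((D.L' v).symm : E' →L[ℝ] E') := by
      ext; simp
    rw [e]
    have ih' := ih (D.ψ v) ((D.L v).symm u) ((D.L v).symm h) (D.L_lt hu)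
      (by rw [← map_add]; exact D.L_lt hp) (by rw [← map_sub]; exact D.L_lt hm)
    have hh : ‖(D.L v).symm h‖ ≤ D.lam * ‖h‖ :=
      (((D.L v).symm : E →L[ℝ] E).le_opNorm h).trans
        (mul_le_mul_of_nonneg_right (D.norm_L_symm v) (norm_nonneg _))
    have hlp := D.lam_pos
    have hLp : 0 < D.Lam := one_pos.trans D.one_lt_Lam
    have hM : 0 ≤ ‖pl (E := E) (E' := E')‖ * D.M 3 :=
      (norm_nonneg _).trans (D.Ph_bound (v := v) 2 (hmem u hu))
    set N := D.Ph (D.ψ v) (0, (D.L v).symm u + (D.L v).symm h) +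
          D.Ph (D.ψ v) (0, (D.L v).symm u - (D.L v).symm h) -
          (2 : ℝ) • D.Ph (D.ψ v) (0, (D.L v).symm u) with hN
    calc ‖N.comp ((D.L' v).symm : E' →L[ℝ] E')‖ ≤ ‖N‖ * ‖((D.L' v).symm : E' →L[ℝ] E')‖ :=
          ContinuousLinearMap.opNorm_comp_le _ _
      _ ≤ ((D.Lam * D.lam ^ 2) ^ T * (2 * (‖pl (E := E) (E' := E')‖ * D.M 3) *
            (D.lam * ‖h‖) ^ 2)) * D.Lam := by
          refine mul_le_mul (ih'.trans ?_) (D.norm_L'_symm v) (norm_nonneg _) (by positivity)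
          gcongr
      _ = (D.Lam * D.lam ^ 2) ^ (T + 1) * (2 * (‖pl (E := E) (E' := E')‖ * D.M 3) * ‖h‖ ^ 2) := by
          ring

theorem eq_zero_of_pow {W : Type*} [NormedAddCommGroup W] {x : W} {q c : ℝ} (hq0 : 0 ≤ q)
    (hq : q < 1) (h : ∀ T : ℕ, ‖x‖ ≤ q ^ T * c) : x = 0 := by
  have h1 : Tendsto (fun T : ℕ => q ^ T * c) atTop (𝓝 0) := by
    simpa using (tendsto_pow_atTop_nhds_zero_of_lt_one hq0 hq).mul_const c
  exact norm_le_zero_iff.mp (ge_of_tendsto' h1 h)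

/-- **BOTT**: the `z`-derivative at `z = 0` is the affine coordinate -/
theorem bott (v : V) (u : E) (hu : ‖u‖ < D.r) : D.Ph v (0, u) = D.K v u := by
  have hr := D.r_pos
  have hmem : ∀ u : E, ‖u‖ < D.r → ((0 : E'), u) ∈ ball (0 : E' × E) D.r := fun u hu => by
    rw [mem_iff]; exact ⟨by simpa using hr, hu⟩
  have h0 : D.Ph v (0, 0) = 0 := by
    have hd : HasFDerivAt (D.β v) (fderiv ℝ (D.β v) (0, 0)) ((0 : E'), (0 : E)) :=
      ((D.at_smooth (hmem 0 (by simpa using hr))).differentiableAt (by simp)).hasFDerivAt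
    have h1 : HasFDerivAt (fun z : E' => D.β v (z, 0))
        ((fderiv ℝ (D.β v) (0, 0)).comp (ContinuousLinearMap.inl ℝ E' E)) 0 :=
      hd.comp (0 : E') (hasFDerivAt_prodMk_left (0 : E') (0 : E))
    have h2 : (fun z : E' => D.β v (z, 0)) =ᶠ[𝓝 0] fun _ => 0 := by
      filter_upwards [ball_mem_nhds (0 : E') hr] with z hz
      exact D.zero_right v z (by simpa using hz)
    have h3 : HasFDerivAt (fun z : E' => D.β v (z, 0)) (0 : E' →L[ℝ] ℝ) 0 :=
      (hasFDerivAt_const (0 : ℝ) (0 : E')).congr_of_eventuallyEq h2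
    have h4 := h1.unique h3
    ext z
    exact congrArg (fun A : E' →L[ℝ] ℝ => A z) h4
  obtain ⟨A, -, hA⟩ := linear_of_mid_r (f := fun u => D.Ph v (0, u)) hr h0
    (M := ‖pl (E := E) (E' := E')‖ * D.M 1)
    (fun u hu => by
      have := D.Ph_bound (v := v) 0 (hmem u hu)
      rwa [norm_iteratedFDeriv_zero] at this)
    (fun u h hu hp hm => by
      have h1 := eq_zero_of_pow (by have := D.lam_pos; have := D.one_lt_Lam; positivity)
        D.lam_weight (fun T => D.Ph_sd T v u h hu hp hm)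
      exact sub_eq_zero.mp h1)
  have h1 : HasFDerivAt (fun u => D.Ph v (0, u)) (D.D1 v 0) 0 :=
    (D.Ph_diff (hmem 0 (by simpa using hr))).comp (0 : E)
      (hasFDerivAt_prodMk_right (0 : E') (0 : E))
  have h2 : (fun u => D.Ph v (0, u)) =ᶠ[𝓝 0] A := by
    filter_upwards [ball_mem_nhds (0 : E) hr] with u hu
    exact hA u (by simpa using hu)
  have h3 : HasFDerivAt (fun u => D.Ph v (0, u)) A 0 := A.hasFDerivAt.congr_of_eventuallyEq h2
  have h4 := h1.unique h3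
  rw [D.D1_zero] at h4
  have h5 := hA u hu
  have h5' : D.Ph v (0, u) = A u := h5
  rw [h5', ← h4]
  rfl

/-- second derivatives are symmetric -/
theorem symm_mixed {v : V} {p : E' × E} (hp : p ∈ ball (0 : E' × E) D.r) (z : E') (w : E) :
    fderiv ℝ (D.Ps v) p (z, 0) w = fderiv ℝ (D.Ph v) p (0, w) z := by
  have h1 : ContDiffAt ℝ ∞ (D.β v) p := D.at_smooth hp
  have hs : IsSymmSndFDerivAt ℝ (D.β v) p :=
    h1.isSymmSndFDerivAt (by
      rw [minSmoothness_of_isRCLikeNormedField]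
      exact ENat.LEInfty.out)
  have h20 : ContDiffOn ℝ ∞ (fderiv ℝ (D.β v)) (ball 0 D.r) :=
    (D.smooth v).fderiv_of_isOpen isOpen_ball (by simp)
  have h2 : HasFDerivAt (fderiv ℝ (D.β v)) (fderiv ℝ (fderiv ℝ (D.β v)) p) p :=
    ((h20.contDiffAt (isOpen_ball.mem_nhds hp)).differentiableAt (by simp)).hasFDerivAt
  have h3 : fderiv ℝ (D.Ps v) p =
      (pr (E := E) (E' := E') (W := ℝ)) ∘L (fderiv ℝ (fderiv ℝ (D.β v)) p) :=
    ((pr (E := E) (E' := E') (W := ℝ)).hasFDerivAt.comp p h2).fderiv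
  have h4 : fderiv ℝ (D.Ph v) p =
      (pl (E := E) (E' := E')) ∘L (fderiv ℝ (fderiv ℝ (D.β v)) p) :=
    ((pl (E := E) (E' := E')).hasFDerivAt.comp p h2).fderiv
  rw [h3, h4]
  simp only [ContinuousLinearMap.comp_apply, pr_apply, pl_apply]
  exact hs _ _

/-- second differences of the `u`-derivative at `u = 0` -/
theorem Ps_sd (T : ℕ) : ∀ v z h, ‖z‖ < D.r → ‖z + h‖ < D.r → ‖z - h‖ < D.r →
    ‖D.Ps v (z + h, 0) + D.Ps v (z - h, 0) - (2 : ℝ) • D.Ps v (z, 0)‖ ≤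
      (D.Lam * D.lam ^ 2) ^ T *
        (2 * (‖pr (E := E) (E' := E') (W := ℝ)‖ * D.M 3) * ‖h‖ ^ 2) := by
  have hr := D.r_pos
  have hmem : ∀ z : E', ‖z‖ < D.r → (z, (0 : E)) ∈ ball (0 : E' × E) D.r := fun u hu => by
    rw [mem_iff]; exact ⟨hu, by simpa using hr⟩
  induction T with
  | zero =>
    intro v u h hu hp hm
    rw [pow_zero, one_mul]
    have hconv : Convex ℝ (ball (0 : E' × E) D.r) := convex_ball _ _
    have hlip : ∀ x ∈ ball (0 : E' × E) D.r, ∀ y ∈ ball (0 : E' × E) D.r,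
        ‖fderiv ℝ (D.Ps v) y - fderiv ℝ (D.Ps v) x‖ ≤
          (‖pr (E := E) (E' := E') (W := ℝ)‖ * D.M 3) * ‖y - x‖ := fun x hx y hy =>
      fderiv_lip isOpen_ball hconv (D.Ps_smooth v) (fun z hz => D.Ps_bound 2 hz) hx hy
    have e1 : (u, (0 : E)) + (h, 0) = (u + h, 0) := by simp
    have e2 : (u, (0 : E)) - (h, 0) = (u - h, 0) := by simp
    have := sd_le (f := D.Ps v) hconv (fun x hx => (D.Ps_diff hx).differentiableAt) hlip
      (x := (u, (0 : E))) (h := (h, (0 : E))) (hmem u hu) (by rw [e1]; exact hmem _ hp)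
      (by rw [e2]; exact hmem _ hm)
    rw [e1, e2] at this
    have e3 : ‖(h, (0 : E))‖ = ‖h‖ := by simp [Prod.norm_def]
    rw [e3] at this
    exact this
  | succ T ih =>
    intro v' u h hu hp hm
    obtain ⟨v, rfl⟩ := D.ψ_surj v'
    have hlp := D.lam_pos
    have hL' : ∀ x : E', ‖D.L' v x‖ ≤ D.lam * ‖x‖ := fun x =>
      ((D.L' v : E' →L[ℝ] E').le_opNorm x).trans
        (mul_le_mul_of_nonneg_right (D.norm_L' v) (norm_nonneg _))
    have hlt : ∀ x : E', ‖x‖ < D.r → ‖D.L' v x‖ < D.r := fun x hx => by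
      have h1 := hL' x
      have h2 : D.lam * ‖x‖ ≤ 1 * ‖x‖ :=
        mul_le_mul_of_nonneg_right D.lam_lt_one.le (norm_nonneg _)
      linarith
    have key : ∀ z : E', ‖z‖ < D.r → D.Ps (D.ψ v) (z, 0) =
        (D.Ps v (D.L' v z, 0)).comp (D.L v : E →L[ℝ] E) := by
      intro z hz
      have h1 := D.Ps_equi (v := v) (hmem _ (hlt z hz)) (by simpa using hz)
      ext w
      rw [h1]
      simp
    rw [key _ hp, key _ hm, key _ hu, map_add, map_sub]
    have e : (D.Ps v (D.L' v u + D.L' v h, 0)).comp (D.L v : E →L[ℝ] E) +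
        (D.Ps v (D.L' v u - D.L' v h, 0)).comp (D.L v : E →L[ℝ] E) -
        (2 : ℝ) • (D.Ps v (D.L' v u, 0)).comp (D.L v : E →L[ℝ] E) =
        (D.Ps v (D.L' v u + D.L' v h, 0) + D.Ps v (D.L' v u - D.L' v h, 0) -
          (2 : ℝ) • D.Ps v (D.L' v u, 0)).comp (D.L v : E →L[ℝ] E) := by
      ext; simp
    rw [e]
    have ih' := ih v (D.L' v u) (D.L' v h) (hlt _ hu)
      (by rw [← map_add]; exact hlt _ hp) (by rw [← map_sub]; exact hlt _ hm)
    have hh := hL' h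
    have hLp : 0 < D.Lam := one_pos.trans D.one_lt_Lam
    have hM : 0 ≤ ‖pr (E := E) (E' := E') (W := ℝ)‖ * D.M 3 :=
      (norm_nonneg _).trans (D.Ps_bound (v := v) 2 (hmem u hu))
    set N := D.Ps v (D.L' v u + D.L' v h, 0) + D.Ps v (D.L' v u - D.L' v h, 0) -
          (2 : ℝ) • D.Ps v (D.L' v u, 0) with hN
    calc ‖N.comp (D.L v : E →L[ℝ] E)‖ ≤ ‖N‖ * ‖(D.L v : E →L[ℝ] E)‖ :=
          ContinuousLinearMap.opNorm_comp_le _ _
      _ ≤ ((D.Lam * D.lam ^ 2) ^ T * (2 * (‖pr (E := E) (E' := E') (W := ℝ)‖ * D.M 3) *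
            (D.lam * ‖h‖) ^ 2)) * D.Lam := by
          refine mul_le_mul (ih'.trans ?_) (D.norm_L v) (norm_nonneg _) (by positivity)
          gcongr
      _ = _ := by ring

/-- **BOTT**, flipped -/
theorem bott' (v : V) (z : E') (hz : ‖z‖ < D.r) (w : E) : D.Ps v (z, 0) w = D.K v w z := by
  have hr := D.r_pos
  have hmem : ∀ z : E', ‖z‖ < D.r → (z, (0 : E)) ∈ ball (0 : E' × E) D.r := fun u hu => by
    rw [mem_iff]; exact ⟨hu, by simpa using hr⟩
  have h0 : D.Ps v (0, 0) = 0 := by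
    have hd : HasFDerivAt (D.β v) (fderiv ℝ (D.β v) (0, 0)) ((0 : E'), (0 : E)) :=
      ((D.at_smooth (hmem 0 (by simpa using hr))).differentiableAt (by simp)).hasFDerivAt
    have h1 : HasFDerivAt (fun u : E => D.β v (0, u))
        ((fderiv ℝ (D.β v) (0, 0)).comp (ContinuousLinearMap.inr ℝ E' E)) 0 :=
      hd.comp (0 : E) (hasFDerivAt_prodMk_right (0 : E') (0 : E))
    have h2 : (fun u : E => D.β v (0, u)) =ᶠ[𝓝 0] fun _ => 0 := by
      filter_upwards [ball_mem_nhds (0 : E) hr] with u hu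
      exact D.zero_left v u (by simpa using hu)
    have h3 : HasFDerivAt (fun u : E => D.β v (0, u)) (0 : E →L[ℝ] ℝ) 0 :=
      (hasFDerivAt_const (0 : ℝ) (0 : E)).congr_of_eventuallyEq h2
    have h4 := h1.unique h3
    ext z
    exact congrArg (fun A : E →L[ℝ] ℝ => A z) h4
  obtain ⟨A, -, hA⟩ := linear_of_mid_r (f := fun z => D.Ps v (z, 0)) hr h0
    (M := ‖pr (E := E) (E' := E') (W := ℝ)‖ * D.M 1)
    (fun u hu => by
      have := D.Ps_bound (v := v) 0 (hmem u hu)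
      rwa [norm_iteratedFDeriv_zero] at this)
    (fun u h hu hp hm => by
      have h1 := eq_zero_of_pow (by have := D.lam_pos; have := D.one_lt_Lam; positivity)
        D.lam_weight (fun T => D.Ps_sd T v u h hu hp hm)
      exact sub_eq_zero.mp h1)
  have h00 := hmem 0 (by simpa using hr)
  have h1 : HasFDerivAt (fun z => D.Ps v (z, 0))
      ((fderiv ℝ (D.Ps v) (0, 0)).comp (ContinuousLinearMap.inl ℝ E' E)) 0 :=
    comp_left (D.Ps_diff h00)
  have h2 : (fun z => D.Ps v (z, 0)) =ᶠ[𝓝 0] A := by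
    filter_upwards [ball_mem_nhds (0 : E') hr] with z hz
    exact hA z (by simpa using hz)
  have h3 : HasFDerivAt (fun z => D.Ps v (z, 0)) A 0 := A.hasFDerivAt.congr_of_eventuallyEq h2
  have h4 := h1.unique h3
  have h5 : D.Ps v (z, 0) = A z := hA z hz
  rw [h5, ← h4]
  have h6 := D.symm_mixed (v := v) h00 z w
  have h7 : D.D1 v 0 w z = fderiv ℝ (D.Ph v) (0, 0) (0, w) z := rfl
  have h8 : D.K v w z = D.D1 v 0 w z := by rw [D.D1_zero]; rfl
  rw [h8, h7]
  exact h6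

theorem cc_left (v : V) (u : E) (hu : ‖u‖ < D.r) : D.cc v (0, u) = 1 := by
  have hr := D.r_pos
  have hm : ((0 : E'), u) ∈ ball (0 : E' × E) D.r := by
    rw [mem_iff]; exact ⟨by simpa using hr, hu⟩
  have h1 : HasFDerivAt (fun u => D.Ph v (0, u)) (D.D1 v (0, u)) u :=
    (D.Ph_diff hm).comp u (hasFDerivAt_prodMk_right (0 : E') u)
  have h2 : (fun u => D.Ph v (0, u)) =ᶠ[𝓝 u] (D.K v : E →L[ℝ] E' →L[ℝ] ℝ) := by
    filter_upwards [isOpen_ball.mem_nhds (show u ∈ ball (0 : E) D.r by simpa using hu)] with w hw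
    exact D.bott v w (by simpa using hw)
  have h3 := h1.unique ((D.K v : E →L[ℝ] E' →L[ℝ] ℝ).hasFDerivAt.congr_of_eventuallyEq h2)
  rw [cc, h3]
  ext w
  simp

theorem cc_right (v : V) (z : E') (hz : ‖z‖ < D.r) : D.cc v (z, 0) = 1 := by
  have hr := D.r_pos
  have hm : (z, (0 : E)) ∈ ball (0 : E' × E) D.r := by
    rw [mem_iff]; exact ⟨hz, by simpa using hr⟩
  have h1 : HasFDerivAt (fun z => D.Ps v (z, 0))
      ((fderiv ℝ (D.Ps v) (z, 0)).comp (ContinuousLinearMap.inl ℝ E' E)) z :=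
    comp_left (D.Ps_diff hm)
  have h2 : (fun z => D.Ps v (z, 0)) =ᶠ[𝓝 z] (D.K v : E →L[ℝ] E' →L[ℝ] ℝ).flip := by
    filter_upwards [isOpen_ball.mem_nhds (show z ∈ ball (0 : E') D.r by simpa using hz)] with w hw
    ext x
    exact D.bott' v w (by simpa using hw) x
  have h3 := h1.unique ((D.K v : E →L[ℝ] E' →L[ℝ] ℝ).flip.hasFDerivAt.congr_of_eventuallyEq h2)
  have h4 : D.D1 v (z, 0) = (D.K v : E →L[ℝ] E' →L[ℝ] ℝ) := by
    ext w z'
    have h5 := D.symm_mixed (v := v) hm z' w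
    have h6 := congrArg (fun A : E' →L[ℝ] E →L[ℝ] ℝ => A z' w) h3
    simp only [ContinuousLinearMap.comp_apply, ContinuousLinearMap.inl_apply,
      ContinuousLinearMap.flip_apply] at h6
    show fderiv ℝ (D.Ph v) (z, 0) (0, w) z' = _
    rw [← h5, h6]
  rw [cc, h4]
  ext w
  simp

/-- equivariance of the derivative of the holonomy -/
theorem C_equi : D.toCocycle.Equi D.C := by
  intro v u z hu hz hz2
  have hm : (z, u) ∈ ball (0 : E' × E) D.r := by rw [mem_iff]; exact ⟨hz, hu⟩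
  ext w
  apply (D.K v).injective
  have h1 := D.D1_equi hm hz2 w
  have e1 : D.K v (D.C v u z w) = D.D1 v (z, u) w := by simp [C, cc]
  rw [e1, h1, D.K_equi]
  simp only [cj, ContinuousLinearMap.comp_apply, ContinuousLinearEquiv.coe_coe,
    ContinuousLinearEquiv.symm_apply_apply]
  congr 1
  simp [C, cc]

end BetaD

end Vale.Agent.P207.H267
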