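import Vale.Agent.P207.H267.BetaQ

/-!
P207, all dimensions (line N4), row BETA (step 8), the end: `BaseD.exists_P`.
-/

set_option maxSynthPendingDepth 3

open Set Filter Topology Metric
open scoped ContDiff

noncomputable section

namespace Vale.Agent.P207.H267

section Tp

variable {E E' : Type*} [NormedAddCommGroup E] [NormedSpace ℝ E] [NormedAddCommGroup E']
  [NormedSpace ℝ E']

theorem cj_symm_cj (A : E ≃L[ℝ] E) (T : E →L[ℝ] E) : cj A.symm (cj A T) = T := by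
  ext; simp [cj]

theorem cj_symm_cj_symm {A B A' B' : E ≃L[ℝ] E} (h : ∀ u, B (A u) = B' (A' u))
    (T : E →L[ℝ] E) : cj A.symm (cj B.symm T) = cj A'.symm (cj B'.symm T) := by
  have e : A.trans B = A'.trans B' := by ext u; exact h u
  have h1 : ∀ A B : E ≃L[ℝ] E, cj A.symm (cj B.symm T) = cj (A.trans B).symm T := by
    intro A B; ext; simp [cj]
  rw [h1, h1, e]

/-- conjugation as a continuous linear map -/
def cjL (A : E ≃L[ℝ] E) : (E →L[ℝ] E) →L[ℝ] (E →L[ℝ] E) :=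
  (ContinuousLinearMap.compL ℝ E E E (A : E →L[ℝ] E)) ∘L
    ((ContinuousLinearMap.compL ℝ E E E).flip (A.symm : E →L[ℝ] E))

theorem cjL_apply (A : E ≃L[ℝ] E) (T : E →L[ℝ] E) : cjL A T = cj A T := by
  ext w; simp [cjL, cj]

/-- transport of `P` by the frame changes `κ`, `κ'` -/
def tp (κ : E ≃L[ℝ] E) (κ' : E' ≃L[ℝ] E') (Q : E →L[ℝ] E' →L[ℝ] E →L[ℝ] E) :
    E →L[ℝ] E' →L[ℝ] E →L[ℝ] E :=
  (ContinuousLinearMap.compL ℝ E' (E →L[ℝ] E) (E →L[ℝ] E) (cjL κ.symm)) ∘L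
    ((ContinuousLinearMap.compL ℝ E' E' (E →L[ℝ] E)).flip (κ' : E' →L[ℝ] E')) ∘L
      Q ∘L (κ : E →L[ℝ] E)

theorem tp_apply (κ : E ≃L[ℝ] E) (κ' : E' ≃L[ℝ] E') (Q : E →L[ℝ] E' →L[ℝ] E →L[ℝ] E) (u : E)
    (α : E') : tp κ κ' Q u α = cj κ.symm (Q (κ u) (κ' α)) := by
  simp [tp, cjL_apply]

theorem tp_le {κ : E ≃L[ℝ] E} {κ' : E' ≃L[ℝ] E'} {k : ℝ} (h1 : ‖(κ : E →L[ℝ] E)‖ ≤ k)
    (h2 : ‖(κ.symm : E →L[ℝ] E)‖ ≤ k) (h3 : ‖(κ' : E' →L[ℝ] E')‖ ≤ k)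
    (Q : E →L[ℝ] E' →L[ℝ] E →L[ℝ] E) : ‖tp κ κ' Q‖ ≤ k ^ 4 * ‖Q‖ := by
  have hk : 0 ≤ k := (norm_nonneg _).trans h1
  refine ContinuousLinearMap.opNorm_le_bound _ (by positivity) fun u => ?_
  refine ContinuousLinearMap.opNorm_le_bound _ (by positivity) fun α => ?_
  rw [tp_apply]
  have h4 : ‖cj κ.symm (Q (κ u) (κ' α))‖ ≤ k * k * ‖Q (κ u) (κ' α)‖ :=
    norm_cj_le (A := κ.symm) h2 h1 _
  have h6 : ‖κ u‖ ≤ k * ‖u‖ := ((κ : E →L[ℝ] E).le_opNorm u).trans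
    (mul_le_mul_of_nonneg_right h1 (norm_nonneg _))
  have h7 : ‖κ' α‖ ≤ k * ‖α‖ := ((κ' : E' →L[ℝ] E').le_opNorm α).trans
    (mul_le_mul_of_nonneg_right h3 (norm_nonneg _))
  have h5 : ‖Q (κ u) (κ' α)‖ ≤ ‖Q‖ * (k * ‖u‖) * (k * ‖α‖) :=
    (Q.le_opNorm₂ _ _).trans (by gcongr)
  calc _ ≤ k * k * ‖Q (κ u) (κ' α)‖ := h4
    _ ≤ k * k * (‖Q‖ * (k * ‖u‖) * (k * ‖α‖)) := by gcongr
    _ = k ^ 4 * ‖Q‖ * ‖u‖ * ‖α‖ := by ring

theorem norm_le_of_ball {W : Type*} [NormedAddCommGroup W] [NormedSpace ℝ W] (A : E →L[ℝ] W)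
    {ρ c : ℝ} (hρ : 0 < ρ) (hc : 0 ≤ c) (h : ∀ u, ‖u‖ < ρ → ‖A u‖ ≤ c) : ‖A‖ ≤ 2 * c / ρ := by
  refine A.opNorm_le_bound (by positivity) fun x => ?_
  rcases eq_or_ne x 0 with rfl | hx
  · simp
  have hx' : 0 < ‖x‖ := norm_pos_iff.mpr hx
  set t : ℝ := ρ / (2 * ‖x‖) with ht
  have ht0 : 0 < t := by positivity
  have h1 : ‖t • x‖ < ρ := by
    rw [norm_smul, Real.norm_of_nonneg ht0.le, ht]
    have : ρ / (2 * ‖x‖) * ‖x‖ = ρ / 2 := by field_simp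
    rw [this]; linarith
  have h2 := h _ h1
  rw [map_smul, norm_smul, Real.norm_of_nonneg ht0.le] at h2
  calc ‖A x‖ = t⁻¹ * (t * ‖A x‖) := by field_simp
    _ ≤ t⁻¹ * c := by gcongr
    _ = 2 * c / ρ * ‖x‖ := by rw [ht]; field_simp

end Tp

namespace BaseD

open BetaD

variable {V E E' : Type*} [NormedAddCommGroup E] [NormedSpace ℝ E]
  [NormedAddCommGroup E'] [NormedSpace ℝ E'] (D : BaseD V E E')

/-- the derivative in `z` at a general point -/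
theorem C_fderiv {P : V → E →L[ℝ] E' →L[ℝ] E →L[ℝ] E}
    (hP : ∀ v u, ‖u‖ < D.r → HasFDerivAt (D.C v u) (P v u) 0) {v : V} {z₁ : E'} {u : E}
    (hz : ‖z₁‖ < D.ρ) (hu : ‖u‖ < D.ρ) (α : E') :
    fderiv ℝ (D.C v u) z₁ α =
      (tp (D.κ v z₁) (D.κ' v z₁) (P (D.mv v z₁)) ((D.κ v z₁).symm (D.g v z₁ u)) α) ∘L
        D.C v u z₁ := by
  set T : (E →L[ℝ] E) →L[ℝ] (E →L[ℝ] E) :=
    ((ContinuousLinearMap.compL ℝ E E E).flip (D.C v u z₁)) ∘L cjL (D.κ v z₁).symm with hT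
  have d1 : HasFDerivAt (fun w => D.κ' v z₁ (w - z₁)) (D.κ' v z₁ : E' →L[ℝ] E') z₁ :=
    (D.κ' v z₁ : E' →L[ℝ] E').hasFDerivAt.comp z₁ ((hasFDerivAt_id z₁).sub_const z₁)
  have d2 : HasFDerivAt (D.C (D.mv v z₁) (D.g v z₁ u)) (P (D.mv v z₁) (D.g v z₁ u))
      (D.κ' v z₁ (z₁ - z₁)) := by
    rw [sub_self, map_zero]
    exact hP _ _ (D.g_lt v z₁ u hz hu)
  have d3 : HasFDerivAt (fun z => T (D.C (D.mv v z₁) (D.g v z₁ u) (D.κ' v z₁ (z - z₁))))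
      (T ∘L ((P (D.mv v z₁) (D.g v z₁ u)) ∘L (D.κ' v z₁ : E' →L[ℝ] E'))) z₁ :=
    T.hasFDerivAt.comp z₁ (HasFDerivAt.comp (g := D.C (D.mv v z₁) (D.g v z₁ u)) z₁ d2 d1)
  have d4 : (D.C v u) =ᶠ[𝓝 z₁]
      fun z => T (D.C (D.mv v z₁) (D.g v z₁ u) (D.κ' v z₁ (z - z₁))) := by
    filter_upwards [D.C_base (v := v) hz hu] with z hz'
    rw [hz']
    show _ = ((cjL (D.κ v z₁).symm) _) ∘L D.C v u z₁
    rw [cjL_apply]
  rw [(d3.congr_of_eventuallyEq d4).fderiv]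
  show ((cjL (D.κ v z₁).symm) _) ∘L D.C v u z₁ = _
  rw [cjL_apply, tp_apply, ContinuousLinearEquiv.apply_symm_apply]
  rfl

theorem C_sub_one {v : V} {z : E'} {u : E} (hz : ‖z‖ < D.r) (hu : ‖u‖ < D.r) :
    ‖D.C v u z - 1‖ ≤ D.A 1 * ‖z‖ := by
  have h1 := (convex_ball (0 : E') D.r).norm_image_sub_le_of_norm_fderiv_le (𝕜 := ℝ)
    (f := D.C v u) (C := D.A 1) (x := 0) (y := z)
    (fun x hx => (D.C_diff (v := v) (by simpa using hx) hu).differentiableAt)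
    (fun x hx => D.C_fderiv_le (v := v) (by simpa using hx) hu)
    (mem_ball_self D.r_pos) (by simpa using hz)
  have h2 : D.C v u 0 = 1 := D.cc_left v u hu
  rwa [h2, sub_zero] at h1

theorem h_sub {v : V} {z : E'} {u : E} (hz : ‖z‖ < D.ρ) (hu : ‖u‖ < D.ρ) :
    ‖(D.κ v z).symm (D.g v z u) - u‖ ≤ D.A 1 * ‖z‖ * ‖u‖ := by
  have h1 := (convex_ball (0 : E) D.ρ).norm_image_sub_le_of_norm_hasFDerivWithin_le (𝕜 := ℝ)
    (f := fun u => (D.κ v z).symm (D.g v z u) - u) (f' := fun u => D.C v u z - 1)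
    (C := D.A 1 * ‖z‖) (x := 0) (y := u)
    (fun x hx => ((D.h_deriv_u (v := v) hz (by simpa using hx)).sub
      (hasFDerivAt_id x)).hasFDerivWithinAt)
    (fun x hx => D.C_sub_one (v := v) (D.lt_r hz) (D.lt_r (by simpa using hx)))
    (mem_ball_self D.ρ_pos) (by simpa using hu)
  simpa [D.g_zero v z hz] using h1

theorem tp_sub {P : V → E →L[ℝ] E' →L[ℝ] E →L[ℝ] E} {p : ℝ} (hPb : ∀ v, ‖P v‖ ≤ p)
    (hP : ∀ v u, ‖u‖ < D.r → HasFDerivAt (D.C v u) (P v u) 0) {v : V} {z : E'}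
    (hz : ‖z‖ < D.ρ) :
    ‖tp (D.κ v z) (D.κ' v z) (P (D.mv v z)) - P v‖ ≤
      2 * (D.A 2 + D.k0 ^ 4 * p * (D.ρ * (1 + D.A 1 * D.ρ)) * D.A 1 +
        D.k0 ^ 4 * p * (D.A 1 * D.ρ)) / D.ρ * ‖z‖ := by
  have hρ := D.ρ_pos
  have hA1 := D.A_nonneg v 1
  have hA2 := D.A_nonneg v 2
  have hp : 0 ≤ p := (norm_nonneg _).trans (hPb v)
  have hk : 0 ≤ D.k0 := (norm_nonneg _).trans (D.κ_le v z hz)
  set Q := tp (D.κ v z) (D.κ' v z) (P (D.mv v z)) with hQ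
  have hQn : ‖Q‖ ≤ D.k0 ^ 4 * p := (tp_le (D.κ_le v z hz) (D.κ_symm_le v z hz) (D.κ'_le v z hz)
    _).trans (mul_le_mul_of_nonneg_left (hPb _) (by positivity))
  set c := D.A 2 + D.k0 ^ 4 * p * (D.ρ * (1 + D.A 1 * D.ρ)) * D.A 1 +
        D.k0 ^ 4 * p * (D.A 1 * D.ρ) with hc
  have hc0 : 0 ≤ c := by positivity
  have h0 : ‖Q - P v‖ ≤ 2 * (c * ‖z‖) / D.ρ := by
    refine norm_le_of_ball _ hρ (by positivity) fun u hu => ?_
    refine ContinuousLinearMap.opNorm_le_bound _ (by positivity) fun α => ?_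
    set h := (D.κ v z).symm (D.g v z u) with hh
    have e1 : fderiv ℝ (D.C v u) z α = (Q h α) ∘L D.C v u z := D.C_fderiv hP hz hu α
    have e2 : P v u α = fderiv ℝ (D.C v u) 0 α := by rw [(hP v u (D.lt_r hu)).fderiv]
    have e3 : (Q - P v) u α = (fderiv ℝ (D.C v u) z - fderiv ℝ (D.C v u) 0) α -
        (Q h α) ∘L (D.C v u z - 1) + Q (u - h) α := by
      rw [sub_apply, sub_apply, e2, sub_apply, e1, map_sub, sub_apply]
      ext w
      simp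
    have b1 : ‖(fderiv ℝ (D.C v u) z - fderiv ℝ (D.C v u) 0) α‖ ≤ D.A 2 * ‖z‖ * ‖α‖ := by
      refine (ContinuousLinearMap.le_opNorm _ _).trans ?_
      have := D.C_fderiv_lip (v := v) (z := z) (z' := 0) (u := u) (D.lt_r hz)
        (by simpa using D.r_pos) (D.lt_r hu)
      rw [sub_zero] at this
      exact mul_le_mul_of_nonneg_right this (norm_nonneg _)
    have hd : ‖u - h‖ ≤ D.A 1 * D.ρ * ‖z‖ := by
      rw [norm_sub_rev]
      refine (D.h_sub hz hu).trans ?_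
      calc D.A 1 * ‖z‖ * ‖u‖ ≤ D.A 1 * ‖z‖ * D.ρ := by gcongr
        _ = D.A 1 * D.ρ * ‖z‖ := by ring
    have hhn : ‖h‖ ≤ D.ρ * (1 + D.A 1 * D.ρ) := by
      have h1 : ‖h‖ ≤ ‖u‖ + ‖u - h‖ := by
        have := norm_sub_norm_le h u
        rw [norm_sub_rev] at this
        linarith
      have h2 : D.A 1 * D.ρ * ‖z‖ ≤ D.A 1 * D.ρ * D.ρ := by gcongr
      nlinarith
    have b2 : ‖(Q h α) ∘L (D.C v u z - 1)‖ ≤
        (D.k0 ^ 4 * p * (D.ρ * (1 + D.A 1 * D.ρ)) * ‖α‖) * (D.A 1 * ‖z‖) := by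
      refine (ContinuousLinearMap.opNorm_comp_le _ _).trans ?_
      have h1 : ‖Q h α‖ ≤ D.k0 ^ 4 * p * (D.ρ * (1 + D.A 1 * D.ρ)) * ‖α‖ :=
        (Q.le_opNorm₂ _ _).trans (by gcongr)
      exact mul_le_mul h1 (D.C_sub_one (D.lt_r hz) (D.lt_r hu)) (norm_nonneg _) (by positivity)
    have b3 : ‖Q (u - h) α‖ ≤ D.k0 ^ 4 * p * (D.A 1 * D.ρ * ‖z‖) * ‖α‖ :=
      (Q.le_opNorm₂ _ _).trans (by gcongr)
    rw [e3]
    calc ‖(fderiv ℝ (D.C v u) z - fderiv ℝ (D.C v u) 0) α -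
        (Q h α) ∘L (D.C v u z - 1) + Q (u - h) α‖
        ≤ ‖(fderiv ℝ (D.C v u) z - fderiv ℝ (D.C v u) 0) α‖ +
          ‖(Q h α) ∘L (D.C v u z - 1)‖ + ‖Q (u - h) α‖ :=
          (norm_add_le _ _).trans (add_le_add_left (norm_sub_le _ _) _)
      _ ≤ D.A 2 * ‖z‖ * ‖α‖ +
        (D.k0 ^ 4 * p * (D.ρ * (1 + D.A 1 * D.ρ)) * ‖α‖) * (D.A 1 * ‖z‖) +
        D.k0 ^ 4 * p * (D.A 1 * D.ρ * ‖z‖) * ‖α‖ := add_le_add (add_le_add b1 b2) b3
      _ = c * ‖z‖ * ‖α‖ := by rw [hc]; ring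
  calc ‖Q - P v‖ ≤ 2 * (c * ‖z‖) / D.ρ := h0
    _ = 2 * c / D.ρ * ‖z‖ := by ring

/-- the cocycle with the smaller radius -/
def S' : Cocycle V E E' := { D.toCocycle with r := D.ρ, r_pos := D.ρ_pos }

theorem par0 {P : V → E →L[ℝ] E' →L[ℝ] E →L[ℝ] E} {p : ℝ} (hPb : ∀ v, ‖P v‖ ≤ p)
    (hP : ∀ v u, ‖u‖ < D.r → HasFDerivAt (D.C v u) (P v u) 0) {v : V} {z : E'}
    (hz : ‖z‖ < D.ρ) : tp (D.κ v z) (D.κ' v z) (P (D.mv v z)) = P v := by
  classical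
  set Δ : V → E' → E →L[ℝ] E' →L[ℝ] E →L[ℝ] E := fun v z =>
    tp (D.κ v z) (D.κ' v z) (P (D.mv v z)) - P v with hΔ
  have hL' : ∀ (w : V) (x : E'), ‖x‖ < D.ρ → ‖D.L' w x‖ < D.ρ := fun w x hx => by
    have h1 : ‖D.L' w x‖ ≤ D.lam * ‖x‖ := ((D.L' w : E' →L[ℝ] E').le_opNorm x).trans
      (mul_le_mul_of_nonneg_right (D.norm_L' w) (norm_nonneg _))
    have h2 : D.lam * ‖x‖ ≤ 1 * ‖x‖ := mul_le_mul_of_nonneg_right D.lam_lt_one.le (norm_nonneg _)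
    linarith
  have hPe : ∀ w u α, P (D.ψ w) u α = cj (D.L w).symm (P w (D.L w u) (D.L' w α)) := by
    intro w u α
    have h1 := Cocycle.P_equi (S := D.toCocycle) (C := D.C) D.C_equi hP w (D.L w u) (D.L' w α)
    rw [ContinuousLinearEquiv.symm_apply_apply, ContinuousLinearEquiv.symm_apply_apply] at h1
    rw [h1, cj_symm_cj]
  have key := Cocycle.par_zero (S := D.S') D.ψ_surj
    (K := 2 * (D.A 2 + D.k0 ^ 4 * p * (D.ρ * (1 + D.A 1 * D.ρ)) * D.A 1 +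
        D.k0 ^ 4 * p * (D.A 1 * D.ρ)) / D.ρ) (Δ := Δ) (fun v z hz => D.tp_sub hPb hP hz) ?_ v z hz
  · exact sub_eq_zero.mp key
  · intro v z hz u α
    have hz2 : ‖z‖ < D.ρ := hz
    have hz3 := hL' v z hz2
    show (tp (D.κ (D.ψ v) z) (D.κ' (D.ψ v) z) (P (D.mv (D.ψ v) z)) - P (D.ψ v)) u α =
      cj (D.L v).symm ((tp (D.κ v (D.L' v z)) (D.κ' v (D.L' v z)) (P (D.mv v (D.L' v z))) - P v)
        (D.L v u) (D.L' v α))
    rw [sub_apply, sub_apply, sub_apply, sub_apply, cj_sub, hPe v u α, tp_apply, tp_apply,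
      ← D.flow_mv v z hz2, hPe (D.mv v (D.L' v z)), D.flow_κ v z hz2, D.flow_κ' v z hz2,
      cj_symm_cj_symm (A := D.κ (D.ψ v) z) (B := D.L (D.mv v (D.L' v z)))
        (A' := D.L v) (B' := D.κ v (D.L' v z)) (D.flow_κ v z hz2)]

theorem S'_equi : D.S'.Equi D.C := by
  intro v u z hu hz hz'
  exact D.C_equi v u z (D.lt_r hu) (D.lt_r hz) (D.lt_r hz')

theorem C_exp {P : V → E →L[ℝ] E' →L[ℝ] E →L[ℝ] E}
    (hP : ∀ v u, ‖u‖ < D.r → HasFDerivAt (D.C v u) (P v u) 0) :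
    ∀ v u z, ‖u‖ < D.S'.r → ‖z‖ < D.S'.r → ‖D.C v u z - 1 - P v u z‖ ≤ D.A 2 * ‖z‖ ^ 2 := by
  intro v u z hu hz
  refine Cocycle.C_bound (S := D.toCocycle) (C := D.C) (M₃ := D.A 2) hP ?_ ?_ ?_ v u z
    (D.lt_r hu) (D.lt_r hz)
  · intro v u z hu hz
    exact (D.C_diff hz hu).differentiableAt
  · intro v u z hu hz
    have := D.C_fderiv_lip (v := v) (z := z) (z' := 0) (u := u) hz (by simpa using D.r_pos) hu
    rwa [sub_zero] at this
  · intro v u hu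
    exact D.cc_left v u hu

/-- `(u, u₁, α) ↦ ½ (P u α u₁ + P u₁ α u)` -/
def sym (P : E →L[ℝ] E' →L[ℝ] E →L[ℝ] E) : E →L[ℝ] E →L[ℝ] E' →L[ℝ] E :=
  (2 : ℝ)⁻¹ • (((ContinuousLinearMap.flipₗᵢ ℝ E' E E : (E' →L[ℝ] E →L[ℝ] E) →L[ℝ]
      (E →L[ℝ] E' →L[ℝ] E)) ∘L P) +
    ((ContinuousLinearMap.flipₗᵢ ℝ E' E E : (E' →L[ℝ] E →L[ℝ] E) →L[ℝ]
      (E →L[ℝ] E' →L[ℝ] E)) ∘L P).flip)

omit D in
theorem sym_apply (P : E →L[ℝ] E' →L[ℝ] E →L[ℝ] E) (u u₁ : E) (α : E') :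
    sym P u u₁ α = (2 : ℝ)⁻¹ • (P u α u₁ + P u₁ α u) := by
  simp [sym]

omit D in
theorem sym_norm (P : E →L[ℝ] E' →L[ℝ] E →L[ℝ] E) : ‖sym P‖ ≤ ‖P‖ := by
  refine ContinuousLinearMap.opNorm_le_bound _ (norm_nonneg _) fun u => ?_
  refine ContinuousLinearMap.opNorm_le_bound _ (by positivity) fun u₁ => ?_
  refine ContinuousLinearMap.opNorm_le_bound _ (by positivity) fun α => ?_
  rw [sym_apply, norm_smul, Real.norm_of_nonneg (by norm_num)]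
  have h : ∀ u u₁ : E, ‖P u α u₁‖ ≤ ‖P‖ * ‖u‖ * ‖α‖ * ‖u₁‖ := fun u u₁ =>
    ((P u α).le_opNorm u₁).trans
      (mul_le_mul_of_nonneg_right (P.le_opNorm₂ u α) (norm_nonneg _))
  have h1 := norm_add_le (P u α u₁) (P u₁ α u)
  have h2 := h u u₁
  have h3 := h u₁ u
  nlinarith

/-- **The output of row BETA**: the holonomy is `u + ½ P(u,u) z + O(|z|²)` at `z = 0`, in the whole
leaf, and `P` is parallel along the stable leaves. -/
theorem exists_P : ∃ P : V → E →L[ℝ] E →L[ℝ] E' →L[ℝ] E,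
    (∀ v, ‖P v‖ ≤ 2 * D.A 1 / D.r) ∧
    (∀ v u u₁ α, P v u u₁ α = P v u₁ u α) ∧
    (∀ v u, HasFDerivAt (fun z => (D.κ v z).symm (D.g v z u)) ((1 / 2 : ℝ) • P v u u) 0) ∧
    (∀ v z, ‖z‖ < D.ρ → ∀ u u₁ α, P (D.mv v z) (D.κ v z u) (D.κ v z u₁) (D.κ' v z α) =
      D.κ v z (P v u u₁ α)) ∧
    (∀ v z u, ‖z‖ < D.ρ → ‖u‖ < D.ρ →
      ‖(D.κ v z).symm (D.g v z u) - u - (1 / 2 : ℝ) • P v u u z‖ ≤ D.A 2 * ‖z‖ ^ 2 * ‖u‖) := by
  obtain ⟨P, hPb, hP⟩ := D.exists_P0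
  have hP' : ∀ v u, ‖u‖ < D.S'.r → HasFDerivAt (D.C v u) (P v u) 0 := fun v u hu =>
    hP v u (D.lt_r hu)
  have h00 : ∀ v z, ‖z‖ < D.S'.r → (D.κ v z).symm (D.g v z 0) = 0 := fun v z hz => by
    rw [D.g_zero v z hz, map_zero]
  have hd : ∀ v z u, ‖z‖ < D.S'.r → ‖u‖ < D.S'.r →
      HasFDerivAt (fun u => (D.κ v z).symm (D.g v z u)) (D.C v u z) u := fun v z u hz hu =>
    D.h_deriv_u hz hu
  have hdiag : ∀ v u α, sym (P v) u u α = P v u α u := fun v u α => by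
    rw [sym_apply, ← two_smul ℝ (P v u α u), smul_smul]; norm_num
  refine ⟨fun v => sym (P v), fun v => (sym_norm _).trans (hPb v), fun v u u₁ α => ?_,
    fun v u => ?_, fun v z hz u u₁ α => ?_, fun v z u hz hu => ?_⟩
  · rw [sym_apply, sym_apply, add_comm]
  · have h1 := Cocycle.h_deriv (S := D.S') (C := D.C) (M₃ := D.A 2) (P := P) D.S'_equi hP'
      (D.C_exp hP) (h := fun v z u => (D.κ v z).symm (D.g v z u)) h00 hd D.flow_g v u
    have e : (1 / 2 : ℝ) • sym (P v) u u = (2 : ℝ)⁻¹ • (P v u).flip u := by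
      ext α
      rw [smul_apply, hdiag]
      simp
    rw [e]
    exact h1
  · have hpar : ∀ u u₁ : E, P (D.mv v z) (D.κ v z u) (D.κ' v z α) (D.κ v z u₁) =
        D.κ v z (P v u α u₁) := by
      intro u u₁
      have h1 := D.par0 hPb hP (v := v) hz
      have h2 : P v u α u₁ = (D.κ v z).symm
          (P (D.mv v z) (D.κ v z u) (D.κ' v z α) (D.κ v z u₁)) := by
        rw [← h1, tp_apply]
        rfl
      rw [h2, ContinuousLinearEquiv.apply_symm_apply]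
    rw [sym_apply, sym_apply, hpar, hpar, ← map_add, ← map_smul]
  · have h1 := Cocycle.h_bound (S := D.S') (C := D.C) (M₃ := D.A 2) (P := P)
      (D.C_exp hP) (h := fun v z u => (D.κ v z).symm (D.g v z u)) h00 hd v z u hz hu
    rw [hdiag, one_div]
    exact h1

end BaseD

section Out

variable {V E E' : Type*} [NormedAddCommGroup E] [NormedSpace ℝ E]
  [NormedAddCommGroup E'] [NormedSpace ℝ E']

/-- polarization -/
theorem polar {P : E →L[ℝ] E →L[ℝ] E' →L[ℝ] E} (hs : ∀ u u₁ α, P u u₁ α = P u₁ u α) (u u₁ : E)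
    (α : E') : P u u₁ α = (2 : ℝ)⁻¹ • (P (u + u₁) (u + u₁) α - P u u α - P u₁ u₁ α) := by
  have e : P (u + u₁) (u + u₁) α = P u u α + P u u₁ α + (P u₁ u α + P u₁ u₁ α) := by
    simp only [map_add, add_apply]
    abel
  rw [e, hs u₁ u α]
  module

/-- a symmetric tensor is determined by its diagonal -/
theorem P_unique {P Q : E →L[ℝ] E →L[ℝ] E' →L[ℝ] E} (hs : ∀ u u₁ α, P u u₁ α = P u₁ u α)
    (hs' : ∀ u u₁ α, Q u u₁ α = Q u₁ u α) (h : ∀ u, P u u = Q u u) : P = Q := by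
  ext u u₁ α
  rw [polar hs, polar hs', h, h, h]

/-- `P` is continuous as soon as the holonomy is continuous in the frame (for fixed coordinates) -/
theorem P_cont [TopologicalSpace V] {P : V → E →L[ℝ] E →L[ℝ] E' →L[ℝ] E}
    (hs : ∀ v u u₁ α, P v u u₁ α = P v u₁ u α) {ρ M : ℝ} (hρ : 0 < ρ) {h : V → E' → E → E}
    (hexp : ∀ v z u, ‖z‖ < ρ → ‖u‖ < ρ →
      ‖h v z u - u - (1 / 2 : ℝ) • P v u u z‖ ≤ M * ‖z‖ ^ 2 * ‖u‖)
    (hc : ∀ z u, ‖z‖ < ρ → ‖u‖ < ρ → Continuous fun v => h v z u) (u u₁ : E) (α : E') :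
    Continuous fun v => P v u u₁ α := by
  -- small vectors, diagonal
  have small : ∀ (u : E) (α : E'), ‖u‖ < ρ → Continuous fun v => P v u u α := by
    intro u α hu
    refine continuous_of_uniform_approx_of_continuous fun U hU => ?_
    obtain ⟨ε, hε, hεU⟩ := Metric.mem_uniformity_dist.mp hU
    set m : ℝ := |M| * ‖α‖ ^ 2 * ‖u‖ with hm
    have hm0 : 0 ≤ m := by positivity
    set t : ℝ := min (ρ / (2 * (‖α‖ + 1))) (ε / (4 * (m + 1))) with ht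
    have ht0 : 0 < t := by
      rw [ht]; exact lt_min (by positivity) (by positivity)
    have ht1 : ‖t • α‖ < ρ := by
      rw [norm_smul, Real.norm_of_nonneg ht0.le]
      have h1 : t ≤ ρ / (2 * (‖α‖ + 1)) := min_le_left _ _
      calc t * ‖α‖ ≤ ρ / (2 * (‖α‖ + 1)) * (‖α‖ + 1) := by
            gcongr; linarith
        _ = ρ / 2 := by field_simp
        _ < ρ := by linarith
    refine ⟨fun v => (2 * t⁻¹) • (h v (t • α) u - u), ?_, fun v => hεU ?_⟩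
    · exact (((hc _ _ ht1 hu).sub continuous_const).const_smul _)
    · have e : P v u u α - (2 * t⁻¹) • (h v (t • α) u - u) =
          -((2 * t⁻¹) • (h v (t • α) u - u - (1 / 2 : ℝ) • P v u u (t • α))) := by
        rw [map_smul, smul_sub (2 * t⁻¹) (h v (t • α) u - u), smul_smul, smul_smul]
        have : 2 * t⁻¹ * (1 / 2) * t = 1 := by field_simp
        rw [this, one_smul]
        abel
      rw [dist_eq_norm, e, norm_neg, norm_smul, Real.norm_of_nonneg (by positivity)]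
      have h1 := hexp v (t • α) u ht1 hu
      rw [norm_smul, Real.norm_of_nonneg ht0.le] at h1
      have h2 : M * (t * ‖α‖) ^ 2 * ‖u‖ ≤ t ^ 2 * m := by
        have : M * (t * ‖α‖) ^ 2 * ‖u‖ ≤ |M| * (t * ‖α‖) ^ 2 * ‖u‖ := by
          gcongr; exact le_abs_self _
        calc _ ≤ _ := this
          _ = t ^ 2 * m := by rw [hm]; ring
      calc 2 * t⁻¹ * ‖h v (t • α) u - u - (1 / 2 : ℝ) • P v u u (t • α)‖
          ≤ 2 * t⁻¹ * (t ^ 2 * m) := by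
            have := h1.trans h2
            gcongr
        _ = 2 * (t * m) := by field_simp
        _ ≤ 2 * (ε / (4 * (m + 1)) * (m + 1)) := by
            have h3 : t ≤ ε / (4 * (m + 1)) := min_le_right _ _
            have : t * m ≤ ε / (4 * (m + 1)) * (m + 1) := by
              gcongr; linarith
            linarith
        _ = ε / 2 := by field_simp; norm_num
        _ < ε := by linarith
  -- all vectors, diagonal
  have diag : ∀ (u : E) (α : E'), Continuous fun v => P v u u α := by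
    intro u α
    set s : ℝ := ρ / (2 * (‖u‖ + 1)) with hs'
    have hs0 : 0 < s := by positivity
    have hsu : ‖s • u‖ < ρ := by
      rw [norm_smul, Real.norm_of_nonneg hs0.le]
      calc s * ‖u‖ ≤ s * (‖u‖ + 1) := by gcongr; linarith
        _ = ρ / 2 := by rw [hs']; field_simp
        _ < ρ := by linarith
    have h1 : Continuous fun v => (s⁻¹ * s⁻¹) • P v (s • u) (s • u) α :=
      (small (s • u) α hsu).const_smul (s⁻¹ * s⁻¹)
    have e : (fun v => (s⁻¹ * s⁻¹) • P v (s • u) (s • u) α) = fun v => P v u u α := by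
      funext v
      simp only [map_smul, smul_apply, smul_smul]
      have : s⁻¹ * s⁻¹ * (s * s) = 1 := by field_simp
      rw [this, one_smul]
    rwa [e] at h1
  have e : (fun v => P v u u₁ α) =
      fun v => (2 : ℝ)⁻¹ • (P v (u + u₁) (u + u₁) α - P v u u α - P v u₁ u₁ α) := by
    funext v; exact polar (hs v) u u₁ α
  rw [e]
  exact (((diag _ _).sub (diag _ _)).sub (diag _ _)).const_smul _

end Out

end Vale.Agent.P207.H267
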