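import Mathlib

/-!
P207, all dimensions (line N4), row SEP (step 8).

`C v u z` (`v` a frame, `u` the affine coordinate in the unstable leaf, `z` the affine coordinate in
the stable leaf) is the derivative in `u` of the stable holonomy `h v z u`, normalised at `u = 0`.
If it is `C²` in `u` for every `z`, differentiable in `z` at `z = 0` for every `u`, and equivariant
under a hyperbolic linear cocycle with `Λ² λ³ < 1`, then its derivative in `z` at `z = 0` is LINEAR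
in `u`; so `h v z u = u + (1/2) P v u z u + O(|z|²)`, and `P` is parallel along the stable leaves.
-/

set_option maxSynthPendingDepth 3

open Set Filter Topology Metric
open scoped ContDiff

namespace Vale.Agent.P207.H267

section Lin

variable {E F : Type*} [NormedAddCommGroup E] [NormedSpace ℝ E] [NormedAddCommGroup F]
  [NormedSpace ℝ F]

/-- A bounded midpoint affine function on the unit ball which vanishes at `0` is linear. -/
theorem linear_of_mid {f : E → F} {M : ℝ} (h0 : f 0 = 0) (hM : ∀ x ∈ ball (0 : E) 1, ‖f x‖ ≤ M)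
    (hmid : ∀ x h, x ∈ ball (0 : E) 1 → x + h ∈ ball (0 : E) 1 → x - h ∈ ball (0 : E) 1 →
      f (x + h) + f (x - h) = (2 : ℝ) • f x) :
    ∃ A : E →L[ℝ] F, ‖A‖ ≤ 2 * M ∧ ∀ x ∈ ball (0 : E) 1, f x = A x := by
  classical
  have hM0 : 0 ≤ M := (norm_nonneg _).trans (hM 0 (mem_ball_self one_pos))
  -- halving
  have half : ∀ x ∈ ball (0 : E) 1, (2 : ℝ) • f ((2 : ℝ)⁻¹ • x) = f x := by
    intro x hx
    have hx' : (2 : ℝ)⁻¹ • x ∈ ball (0 : E) 1 := by
      rw [mem_ball_zero_iff] at hx ⊢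
      rw [norm_smul, Real.norm_of_nonneg (by norm_num)]
      have := norm_nonneg x
      linarith
    have e1 : (2 : ℝ)⁻¹ • x + (2 : ℝ)⁻¹ • x = x := by
      rw [← add_smul]; norm_num
    have := hmid ((2 : ℝ)⁻¹ • x) ((2 : ℝ)⁻¹ • x) hx' (by rw [e1]; exact hx)
      (by rw [sub_self]; exact mem_ball_self one_pos)
    rw [e1, sub_self, h0, add_zero] at this
    exact this.symm
  have add : ∀ x y, ‖x‖ < 1 / 2 → ‖y‖ < 1 / 2 → f (x + y) = f x + f y := by
    intro x y hx hy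
    have hxy : x + y ∈ ball (0 : E) 1 := by
      rw [mem_ball_zero_iff]
      have := norm_add_le x y
      linarith
    have h1 : (2 : ℝ)⁻¹ • (x + y) ∈ ball (0 : E) 1 := by
      rw [mem_ball_zero_iff] at hxy ⊢
      rw [norm_smul, Real.norm_of_nonneg (by norm_num)]
      have := norm_nonneg (x + y)
      linarith
    have e1 : (2 : ℝ)⁻¹ • (x + y) + (2 : ℝ)⁻¹ • (x - y) = x := by
      module
    have e2 : (2 : ℝ)⁻¹ • (x + y) - (2 : ℝ)⁻¹ • (x - y) = y := by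
      module
    have := hmid ((2 : ℝ)⁻¹ • (x + y)) ((2 : ℝ)⁻¹ • (x - y)) h1
      (by rw [e1, mem_ball_zero_iff]; linarith) (by rw [e2, mem_ball_zero_iff]; linarith)
    rw [e1, e2, half _ hxy] at this
    exact this.symm
  -- the extension
  have hpow : ∀ n : ℕ, (0 : ℝ) < 2 ^ n := fun n => by positivity
  have stab : ∀ (x : E) (n k : ℕ), ‖x‖ < 2 ^ n →
      (2 : ℝ) ^ (n + k) • f (((2 : ℝ) ^ (n + k))⁻¹ • x) = (2 : ℝ) ^ n • f (((2 : ℝ) ^ n)⁻¹ • x) := by
    intro x n k hx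
    induction k with
    | zero => simp
    | succ k ih =>
      rw [← ih]
      have hb : ((2 : ℝ) ^ (n + k))⁻¹ • x ∈ ball (0 : E) 1 := by
        rw [mem_ball_zero_iff, norm_smul, norm_inv, Real.norm_of_nonneg (hpow _).le,
          inv_mul_lt_iff₀ (hpow _), mul_one]
        refine hx.trans_le ?_
        exact pow_le_pow_right₀ one_le_two (Nat.le_add_right _ _)
      have h2 := half _ hb
      rw [smul_smul] at h2
      have e : (2 : ℝ)⁻¹ * ((2 : ℝ) ^ (n + k))⁻¹ = ((2 : ℝ) ^ (n + (k + 1)))⁻¹ := by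
        rw [← mul_inv, ← pow_succ', add_assoc]
      rw [e] at h2
      rw [← h2, smul_smul, ← pow_succ, add_assoc]
  set ν : E → ℕ := fun x => ⌈‖x‖⌉₊ with hν
  have hνx : ∀ x, ‖x‖ < 2 ^ (ν x) := by
    intro x
    calc ‖x‖ ≤ (⌈‖x‖⌉₊ : ℝ) := Nat.le_ceil _
      _ < 2 ^ ⌈‖x‖⌉₊ := by exact_mod_cast Nat.lt_two_pow_self
  set g : E → F := fun x => (2 : ℝ) ^ (ν x) • f (((2 : ℝ) ^ (ν x))⁻¹ • x) with hg
  have g_eq : ∀ (x : E) (n : ℕ), ‖x‖ < 2 ^ n → g x = (2 : ℝ) ^ n • f (((2 : ℝ) ^ n)⁻¹ • x) := by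
    intro x n hn
    rcases le_total n (ν x) with h | h
    · obtain ⟨k, hk⟩ := Nat.exists_eq_add_of_le h
      show (2 : ℝ) ^ (ν x) • f (((2 : ℝ) ^ (ν x))⁻¹ • x) = _
      rw [hk]
      exact stab x n k hn
    · obtain ⟨k, hk⟩ := Nat.exists_eq_add_of_le h
      rw [hk]
      exact (stab x (ν x) k (hνx x)).symm
  have g_ball : ∀ x ∈ ball (0 : E) 1, g x = f x := by
    intro x hx
    rw [g_eq x 0 (by simpa using hx)]
    simp
  have g_add : ∀ x y, g (x + y) = g x + g y := by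
    intro x y
    set N : ℕ := ν x + ν y + 1 with hN
    have hx : ‖x‖ * 2 < 2 ^ N := by
      calc ‖x‖ * 2 < 2 ^ (ν x) * 2 := by have := hνx x; linarith
        _ = 2 ^ (ν x + 1) := by rw [pow_succ]
        _ ≤ 2 ^ N := pow_le_pow_right₀ one_le_two (by omega)
    have hy : ‖y‖ * 2 < 2 ^ N := by
      calc ‖y‖ * 2 < 2 ^ (ν y) * 2 := by have := hνx y; linarith
        _ = 2 ^ (ν y + 1) := by rw [pow_succ]
        _ ≤ 2 ^ N := pow_le_pow_right₀ one_le_two (by omega)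
    have hnx := norm_nonneg x
    have hny := norm_nonneg y
    have hxy : ‖x + y‖ < 2 ^ N := by
      have := norm_add_le x y
      linarith
    rw [g_eq (x + y) N hxy, g_eq x N (by linarith), g_eq y N (by linarith), smul_add, add, smul_add]
    · rw [norm_smul, norm_inv, Real.norm_of_nonneg (hpow _).le, inv_mul_lt_iff₀ (hpow _)]
      linarith
    · rw [norm_smul, norm_inv, Real.norm_of_nonneg (hpow _).le, inv_mul_lt_iff₀ (hpow _)]
      linarith
  set G : E →+ F := AddMonoidHom.mk' g g_add with hG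
  have g_small : ∀ (k : ℕ) (x : E), ‖x‖ < ((2 : ℝ) ^ k)⁻¹ → ‖g x‖ ≤ ((2 : ℝ) ^ k)⁻¹ * M := by
    intro k x hx
    have h1 : ((2 : ℝ) ^ k) • x ∈ ball (0 : E) 1 := by
      rw [mem_ball_zero_iff, norm_smul, Real.norm_of_nonneg (hpow _).le]
      calc 2 ^ k * ‖x‖ < 2 ^ k * (2 ^ k)⁻¹ := by gcongr
        _ = 1 := mul_inv_cancel₀ (hpow k).ne'
    have h2 : G (((2 : ℝ) ^ k) • x) = ((2 : ℝ) ^ k) • G x := by
      have : ((2 : ℝ) ^ k) • x = (2 ^ k : ℕ) • x := by
        rw [← Nat.cast_smul_eq_nsmul ℝ (2 ^ k) x]; push_cast; rfl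
      rw [this, map_nsmul, ← Nat.cast_smul_eq_nsmul ℝ (2 ^ k) (G x)]
      push_cast; rfl
    have h3 : g x = ((2 : ℝ) ^ k)⁻¹ • f (((2 : ℝ) ^ k) • x) := by
      rw [← g_ball _ h1]
      have : g (((2 : ℝ) ^ k) • x) = ((2 : ℝ) ^ k) • g x := h2
      rw [this, smul_smul, inv_mul_cancel₀ (hpow k).ne', one_smul]
    rw [h3, norm_smul, norm_inv, Real.norm_of_nonneg (hpow _).le]
    exact mul_le_mul_of_nonneg_left (hM _ h1) (by positivity)
  have hGc : Continuous G := by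
    refine continuous_of_continuousAt_zero G ?_
    show Tendsto G (𝓝 0) (𝓝 (G 0))
    rw [map_zero]
    rw [Metric.tendsto_nhds_nhds]
    intro ε hε
    obtain ⟨k, hk⟩ := exists_nat_gt (M / ε)
    have hk2 : M / ε < 2 ^ k := hk.trans (by exact_mod_cast Nat.lt_two_pow_self)
    refine ⟨((2 : ℝ) ^ k)⁻¹, by positivity, ?_⟩
    intro x hx
    rw [dist_zero_right] at hx ⊢
    refine (g_small k x hx).trans_lt ?_
    rw [inv_mul_lt_iff₀ (hpow k)]
    rw [div_lt_iff₀ hε] at hk2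
    exact hk2
  refine ⟨G.toRealLinearMap hGc, ?_, ?_⟩
  · refine ContinuousLinearMap.opNorm_le_bound _ (by positivity) fun x => ?_
    rcases eq_or_ne x 0 with rfl | hx
    · simp
    · have hxn : 0 < ‖x‖ := norm_pos_iff.mpr hx
      set u : E := (2 * ‖x‖)⁻¹ • x with hu
      have hu1 : u ∈ ball (0 : E) 1 := by
        rw [mem_ball_zero_iff, hu, norm_smul, norm_inv, norm_mul, norm_norm,
          Real.norm_of_nonneg (by norm_num : (0 : ℝ) ≤ 2)]
        rw [inv_mul_lt_iff₀ (by positivity)]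
        linarith
      have hxu : x = (2 * ‖x‖) • u := by
        rw [hu, smul_smul, mul_inv_cancel₀ (by positivity), one_smul]
      have h1 : (G.toRealLinearMap hGc) x = (2 * ‖x‖) • (G.toRealLinearMap hGc) u := by
        conv_lhs => rw [hxu]
        rw [map_smul]
      rw [h1, norm_smul, Real.norm_of_nonneg (by positivity)]
      have h2 : ‖(G.toRealLinearMap hGc) u‖ ≤ M := by
        show ‖g u‖ ≤ M
        rw [g_ball u hu1]
        exact hM u hu1
      nlinarith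
  · intro x hx
    exact (g_ball x hx).symm

/-- the same on the ball of radius `r` -/
theorem linear_of_mid_r {f : E → F} {M r : ℝ} (hr : 0 < r) (h0 : f 0 = 0)
    (hM : ∀ x, ‖x‖ < r → ‖f x‖ ≤ M)
    (hmid : ∀ x h, ‖x‖ < r → ‖x + h‖ < r → ‖x - h‖ < r → f (x + h) + f (x - h) = (2 : ℝ) • f x) :
    ∃ A : E →L[ℝ] F, ‖A‖ ≤ 2 * M / r ∧ ∀ x, ‖x‖ < r → f x = A x := by
  have hb : ∀ x : E, ‖x‖ < 1 → ‖r • x‖ < r := by
    intro x hx
    rw [norm_smul, Real.norm_of_nonneg hr.le]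
    nlinarith
  obtain ⟨A, hA1, hA2⟩ := linear_of_mid (f := fun x => f (r • x)) (M := M) (by simp [h0])
    (fun x hx => hM _ (hb x (by simpa using hx)))
    (fun x h hx hp hm => by
      show f (r • (x + h)) + f (r • (x - h)) = (2 : ℝ) • f (r • x)
      rw [smul_add, smul_sub]
      refine hmid _ _ (hb x (by simpa using hx)) ?_ ?_
      · rw [← smul_add]; exact hb _ (by simpa using hp)
      · rw [← smul_sub]; exact hb _ (by simpa using hm))
  refine ⟨r⁻¹ • A, ?_, ?_⟩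
  · rw [norm_smul, norm_inv, Real.norm_of_nonneg hr.le, div_eq_inv_mul]
    exact mul_le_mul_of_nonneg_left hA1 (by positivity)
  · intro x hx
    have h1 : r⁻¹ • x ∈ ball (0 : E) 1 := by
      rw [mem_ball_zero_iff, norm_smul, norm_inv, Real.norm_of_nonneg hr.le,
        inv_mul_lt_iff₀ hr, mul_one]
      exact hx
    have h2 := hA2 _ h1
    simp only [smul_smul, mul_inv_cancel₀ hr.ne', one_smul] at h2
    rw [h2, map_smul, smul_apply]

end Lin

section Sep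

variable {V E E' : Type*} [NormedAddCommGroup E] [NormedSpace ℝ E] [NormedAddCommGroup E']
  [NormedSpace ℝ E']

/-- Data of row SEP: `ψ v` is the point one unit of time before `v`, `L v` and `L' v` are the
derivatives of the flow from `ψ v` to `v` on the unstable and on the stable space. -/
structure Cocycle (V E E' : Type*) [NormedAddCommGroup E] [NormedSpace ℝ E]
    [NormedAddCommGroup E'] [NormedSpace ℝ E'] where
  ψ : V → V
  L : V → E ≃L[ℝ] E
  L' : V → E' ≃L[ℝ] E'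
  lam : ℝ
  Lam : ℝ
  lam_pos : 0 < lam
  one_lt_Lam : 1 < Lam
  norm_L : ∀ v, ‖(L v : E →L[ℝ] E)‖ ≤ Lam
  norm_L_symm : ∀ v, ‖((L v).symm : E →L[ℝ] E)‖ ≤ lam
  norm_L' : ∀ v, ‖(L' v : E' →L[ℝ] E')‖ ≤ lam
  norm_L'_symm : ∀ v, ‖((L' v).symm : E' →L[ℝ] E')‖ ≤ Lam
  lam_lt_one : lam < 1
  weight : Lam ^ 2 * lam ^ 3 < 1
  r : ℝ
  r_pos : 0 < r

/-- conjugation -/
def cj (A : E ≃L[ℝ] E) (T : E →L[ℝ] E) : E →L[ℝ] E :=
  (A : E →L[ℝ] E) ∘L T ∘L (A.symm : E →L[ℝ] E)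

theorem cj_add (A : E ≃L[ℝ] E) (T T' : E →L[ℝ] E) : cj A (T + T') = cj A T + cj A T' := by
  ext; simp [cj]

theorem cj_sub (A : E ≃L[ℝ] E) (T T' : E →L[ℝ] E) : cj A (T - T') = cj A T - cj A T' := by
  ext; simp [cj]

theorem cj_smul (A : E ≃L[ℝ] E) (c : ℝ) (T : E →L[ℝ] E) : cj A (c • T) = c • cj A T := by
  ext; simp [cj]

theorem norm_cj_le {A : E ≃L[ℝ] E} {a b : ℝ} (ha : ‖(A : E →L[ℝ] E)‖ ≤ a)
    (hb : ‖(A.symm : E →L[ℝ] E)‖ ≤ b) (T : E →L[ℝ] E) : ‖cj A T‖ ≤ a * b * ‖T‖ := by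
  have ha0 : 0 ≤ a := (norm_nonneg _).trans ha
  calc ‖cj A T‖ ≤ ‖(A : E →L[ℝ] E)‖ * (‖T‖ * ‖(A.symm : E →L[ℝ] E)‖) :=
        (ContinuousLinearMap.opNorm_comp_le _ _).trans
          (mul_le_mul_of_nonneg_left (ContinuousLinearMap.opNorm_comp_le _ _) (norm_nonneg _))
    _ ≤ a * (‖T‖ * b) := by gcongr
    _ = a * b * ‖T‖ := by ring

/-- the second difference -/
def sd (C : E → E' → E →L[ℝ] E) (u h : E) (z : E') : E →L[ℝ] E :=
  C (u + h) z + C (u - h) z - (2 : ℝ) • C u z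

namespace Cocycle

variable (S : Cocycle V E E') (C : V → E → E' → E →L[ℝ] E)

/-- one step of the zoom -/
def Equi : Prop := ∀ v u z, ‖u‖ < S.r → ‖z‖ < S.r → ‖(S.L' v).symm z‖ < S.r →
  C v u z = cj (S.L v) (C (S.ψ v) ((S.L v).symm u) ((S.L' v).symm z))

variable {S C}

theorem symm_lt (S : Cocycle V E E') (v : V) {u : E} (hu : ‖u‖ < S.r) : ‖(S.L v).symm u‖ < S.r := by
  have h1 : ‖(S.L v).symm u‖ ≤ ‖((S.L v).symm : E →L[ℝ] E)‖ * ‖u‖ :=
    ((S.L v).symm : E →L[ℝ] E).le_opNorm u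
  have h2 : ‖((S.L v).symm : E →L[ℝ] E)‖ * ‖u‖ ≤ S.lam * ‖u‖ :=
    mul_le_mul_of_nonneg_right (S.norm_L_symm v) (norm_nonneg _)
  have h3 : S.lam * ‖u‖ ≤ 1 * ‖u‖ := mul_le_mul_of_nonneg_right S.lam_lt_one.le (norm_nonneg _)
  linarith

/-- the second differences at height `z` are small -/
theorem sd_bound (heq : S.Equi C) {M₂ : ℝ}
    (h2 : ∀ v u h z, ‖u‖ < S.r → ‖u + h‖ < S.r → ‖u - h‖ < S.r → ‖z‖ < S.r →
      ‖sd (C v) u h z‖ ≤ M₂ * ‖h‖ ^ 2) (T : ℕ) :
    ∀ v u h z, ‖u‖ < S.r → ‖u + h‖ < S.r → ‖u - h‖ < S.r → ‖z‖ * S.Lam ^ T < S.r →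
      ‖sd (C v) u h z‖ ≤ (S.Lam * S.lam ^ 3) ^ T * (M₂ * ‖h‖ ^ 2) := by
  induction T with
  | zero =>
    intro v u h z hu hp hm hz
    rw [pow_zero, mul_one] at hz
    rw [pow_zero, one_mul]
    exact h2 v u h z hu hp hm hz
  | succ T ih =>
    intro v u h z hu hp hm hz
    have hL1 := S.one_lt_Lam
    have hLT : (1 : ℝ) ≤ S.Lam ^ T := one_le_pow₀ hL1.le
    have hzn := norm_nonneg z
    have hz' : ‖(S.L' v).symm z‖ ≤ S.Lam * ‖z‖ :=
      (((S.L' v).symm : E' →L[ℝ] E').le_opNorm z).trans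
        (mul_le_mul_of_nonneg_right (S.norm_L'_symm v) hzn)
    have hz2 : ‖(S.L' v).symm z‖ * S.Lam ^ T < S.r := by
      calc ‖(S.L' v).symm z‖ * S.Lam ^ T ≤ S.Lam * ‖z‖ * S.Lam ^ T := by gcongr
        _ = ‖z‖ * S.Lam ^ (T + 1) := by rw [pow_succ]; ring
        _ < S.r := hz
    have hz3 : ‖(S.L' v).symm z‖ < S.r := by
      have : ‖(S.L' v).symm z‖ * 1 ≤ ‖(S.L' v).symm z‖ * S.Lam ^ T :=
        mul_le_mul_of_nonneg_left hLT (norm_nonneg _)
      linarith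
    have hz1 : ‖z‖ < S.r := by
      have h1 : (1 : ℝ) ≤ S.Lam ^ (T + 1) := one_le_pow₀ hL1.le
      have : ‖z‖ * 1 ≤ ‖z‖ * S.Lam ^ (T + 1) := mul_le_mul_of_nonneg_left h1 hzn
      linarith
    have e : sd (C v) u h z = cj (S.L v)
        (sd (C (S.ψ v)) ((S.L v).symm u) ((S.L v).symm h) ((S.L' v).symm z)) := by
      rw [sd, heq v (u + h) z hp hz1 hz3, heq v (u - h) z hm hz1 hz3, heq v u z hu hz1 hz3, sd,
        cj_sub, cj_add, cj_smul, map_add, map_sub]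
    rw [e]
    have hh : ‖(S.L v).symm h‖ ≤ S.lam * ‖h‖ :=
      (((S.L v).symm : E →L[ℝ] E).le_opNorm h).trans
        (mul_le_mul_of_nonneg_right (S.norm_L_symm v) (norm_nonneg _))
    have hM : 0 ≤ M₂ * ‖h‖ ^ 2 := (norm_nonneg _).trans (h2 v u h z hu hp hm hz1)
    have ih' := ih (S.ψ v) ((S.L v).symm u) ((S.L v).symm h) ((S.L' v).symm z) (S.symm_lt v hu)
      (by rw [← map_add]; exact S.symm_lt v hp) (by rw [← map_sub]; exact S.symm_lt v hm) hz2
    have hlp := S.lam_pos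
    have hM' : M₂ * ‖(S.L v).symm h‖ ^ 2 ≤ S.lam ^ 2 * (M₂ * ‖h‖ ^ 2) := by
      rcases le_or_gt 0 M₂ with hM2 | hM2
      · calc M₂ * ‖(S.L v).symm h‖ ^ 2 ≤ M₂ * (S.lam * ‖h‖) ^ 2 := by gcongr
          _ = S.lam ^ 2 * (M₂ * ‖h‖ ^ 2) := by ring
      · have h1 : M₂ * ‖(S.L v).symm h‖ ^ 2 ≤ 0 :=
          mul_nonpos_of_nonpos_of_nonneg hM2.le (by positivity)
        have h3 : 0 ≤ S.lam ^ 2 * (M₂ * ‖h‖ ^ 2) := by positivity
        linarith
    have hr : 0 ≤ (S.Lam * S.lam ^ 3) ^ T := by positivity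
    calc ‖cj (S.L v) _‖ ≤ S.Lam * S.lam * ‖_‖ := norm_cj_le (S.norm_L v) (S.norm_L_symm v) _
      _ ≤ S.Lam * S.lam * ((S.Lam * S.lam ^ 3) ^ T * (S.lam ^ 2 * (M₂ * ‖h‖ ^ 2))) := by
          have : 0 ≤ S.Lam * S.lam := by positivity
          refine mul_le_mul_of_nonneg_left (ih'.trans ?_) this
          exact mul_le_mul_of_nonneg_left hM' hr
      _ = (S.Lam * S.lam ^ 3) ^ (T + 1) * (M₂ * ‖h‖ ^ 2) := by ring

/-- **SEP.** The `z`-derivative at `z = 0` is linear in `u`. -/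
theorem sep (heq : S.Equi C) {M₁ M₂ : ℝ}
    (h2 : ∀ v u h z, ‖u‖ < S.r → ‖u + h‖ < S.r → ‖u - h‖ < S.r → ‖z‖ < S.r →
      ‖sd (C v) u h z‖ ≤ M₂ * ‖h‖ ^ 2)
    (hz : ∀ v u, ‖u‖ < S.r → DifferentiableAt ℝ (C v u) 0)
    (hb : ∀ v u, ‖u‖ < S.r → ‖fderiv ℝ (C v u) 0‖ ≤ M₁)
    (h0 : ∀ v u, ‖u‖ < S.r → C v u 0 = 1)
    (h0' : ∀ v z, ‖z‖ < S.r → C v 0 z = 1) :
    ∃ P : V → E →L[ℝ] E' →L[ℝ] E →L[ℝ] E, (∀ v, ‖P v‖ ≤ 2 * M₁ / S.r) ∧
      ∀ v u, ‖u‖ < S.r → HasFDerivAt (C v u) (P v u) 0 := by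
  have key : ∀ v, ∃ A : E →L[ℝ] (E' →L[ℝ] E →L[ℝ] E), ‖A‖ ≤ 2 * M₁ / S.r ∧
      ∀ u, ‖u‖ < S.r → fderiv ℝ (C v u) 0 = A u := by
    intro v
    refine linear_of_mid_r (f := fun u => fderiv ℝ (C v u) 0) S.r_pos ?_ ?_ ?_
    · show fderiv ℝ (C v 0) 0 = 0
      have : C v 0 =ᶠ[𝓝 0] fun _ => (1 : E →L[ℝ] E) := by
        filter_upwards [ball_mem_nhds (0 : E') S.r_pos] with z hz'
        exact h0' v z (by simpa using hz')
      rw [this.fderiv_eq]
      simp
    · intro u hu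
      exact hb v u hu
    · intro u h hu hp hm
      ext1 α
      -- the sequence `t_T = c Λ^{-T}`
      set c : ℝ := S.r * (‖α‖ + 1)⁻¹ with hc
      have hα : 0 ≤ ‖α‖ := norm_nonneg _
      have hrp := S.r_pos
      have hcpos : 0 < c := by positivity
      have hL0 : 0 < S.Lam := one_pos.trans S.one_lt_Lam
      set t : ℕ → ℝ := fun T => c * (S.Lam ^ T)⁻¹ with ht
      have ht0 : ∀ T, 0 < t T := fun T => by positivity
      have htlim : Tendsto t atTop (𝓝 0) := by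
        have h1 : Tendsto (fun T : ℕ => (S.Lam⁻¹) ^ T) atTop (𝓝 0) :=
          tendsto_pow_atTop_nhds_zero_of_lt_one (by positivity) (inv_lt_one_of_one_lt₀ S.one_lt_Lam)
        have h2 := h1.const_mul c
        rw [mul_zero] at h2
        refine h2.congr fun T => ?_
        rw [ht, inv_pow]
      have htne : Tendsto t atTop (𝓝[≠] 0) :=
        tendsto_nhdsWithin_iff.mpr ⟨htlim, Eventually.of_forall fun T => (ht0 T).ne'⟩
      have hd : ∀ u', ‖u'‖ < S.r →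
          Tendsto (fun T => (t T)⁻¹ • (C v u' (t T • α) - 1)) atTop (𝓝 (fderiv ℝ (C v u') 0 α)) := by
        intro u' hu'
        have h1 : HasDerivAt (fun s : ℝ => C v u' (s • α)) (fderiv ℝ (C v u') 0 α) 0 := by
          have h3 : HasDerivAt (fun s : ℝ => s • α) α 0 := by
            simpa using (hasDerivAt_id (0 : ℝ)).smul_const α
          have h4 : HasFDerivAt (C v u') (fderiv ℝ (C v u') 0) ((0 : ℝ) • α) := by
            rw [zero_smul]; exact (hz v u' hu').hasFDerivAt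
          exact h4.comp_hasDerivAt (0 : ℝ) h3
        have h2 := hasDerivAt_iff_tendsto_slope.mp h1
        have h3 := h2.comp htne
        refine h3.congr fun T => ?_
        simp only [Function.comp_apply, slope, vsub_eq_sub, sub_zero, zero_smul]
        rw [h0 v u' hu']
      have hlim : Tendsto (fun T => (t T)⁻¹ • sd (C v) u h (t T • α)) atTop
          (𝓝 (fderiv ℝ (C v (u + h)) 0 α + fderiv ℝ (C v (u - h)) 0 α
            - (2 : ℝ) • fderiv ℝ (C v u) 0 α)) := by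
        have := ((hd _ hp).add (hd _ hm)).sub ((hd _ hu).const_smul (2 : ℝ))
        refine this.congr fun T => ?_
        rw [sd]
        module
      have hsmall : ∀ T, ‖(t T)⁻¹ • sd (C v) u h (t T • α)‖ ≤
          (c⁻¹ * (M₂ * ‖h‖ ^ 2)) * (S.Lam ^ 2 * S.lam ^ 3) ^ T := by
        intro T
        have h1 : ‖t T • α‖ * S.Lam ^ T < S.r := by
          rw [norm_smul, Real.norm_of_nonneg (ht0 T).le, ht]
          have hLT : 0 < S.Lam ^ T := by positivity
          calc c * (S.Lam ^ T)⁻¹ * ‖α‖ * S.Lam ^ T = c * ‖α‖ := by field_simp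
            _ < S.r := by
                rw [hc, mul_assoc]
                have h5 : (‖α‖ + 1)⁻¹ * ‖α‖ < 1 := by
                  rw [inv_mul_lt_iff₀ (by positivity)]
                  linarith
                calc S.r * ((‖α‖ + 1)⁻¹ * ‖α‖) < S.r * 1 := mul_lt_mul_of_pos_left h5 hrp
                  _ = S.r := mul_one _
        have h3 := sd_bound heq h2 T v u h (t T • α) hu hp hm h1
        rw [norm_smul, norm_inv, Real.norm_of_nonneg (ht0 T).le]
        calc (t T)⁻¹ * ‖sd (C v) u h (t T • α)‖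
            ≤ (t T)⁻¹ * ((S.Lam * S.lam ^ 3) ^ T * (M₂ * ‖h‖ ^ 2)) := by
              exact mul_le_mul_of_nonneg_left h3 (inv_nonneg.mpr (ht0 T).le)
          _ = (c⁻¹ * (M₂ * ‖h‖ ^ 2)) * (S.Lam ^ 2 * S.lam ^ 3) ^ T := by
              rw [ht]
              simp only [mul_inv, inv_inv]
              ring
      have hzero : Tendsto (fun T => (t T)⁻¹ • sd (C v) u h (t T • α)) atTop (𝓝 0) := by
        refine squeeze_zero_norm hsmall ?_
        have h1 : Tendsto (fun T : ℕ => (S.Lam ^ 2 * S.lam ^ 3) ^ T) atTop (𝓝 0) :=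
          tendsto_pow_atTop_nhds_zero_of_lt_one (by have := S.lam_pos; positivity) S.weight
        simpa using h1.const_mul (c⁻¹ * (M₂ * ‖h‖ ^ 2))
      have := tendsto_nhds_unique hlim hzero
      rw [sub_eq_zero] at this
      exact this
  choose P hP1 hP2 using key
  refine ⟨P, hP1, ?_⟩
  intro v u hu
  rw [← hP2 v u hu]
  exact (hz v u hu).hasFDerivAt

/-- equivariance of `P` -/
theorem P_equi (heq : S.Equi C) {P : V → E →L[ℝ] E' →L[ℝ] E →L[ℝ] E}
    (hP : ∀ v u, ‖u‖ < S.r → HasFDerivAt (C v u) (P v u) 0) (v : V) (u : E) (α : E') :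
    P v u α = cj (S.L v) (P (S.ψ v) ((S.L v).symm u) ((S.L' v).symm α)) := by
  -- it suffices to treat small `u`
  have small : ∀ u : E, ‖u‖ < S.r → ∀ α : E',
      P v u α = cj (S.L v) (P (S.ψ v) ((S.L v).symm u) ((S.L' v).symm α)) := by
    intro u hu α
    have h1 : HasFDerivAt (C v u) (P v u) 0 := hP v u hu
    set cjL : (E →L[ℝ] E) →L[ℝ] (E →L[ℝ] E) :=
      (ContinuousLinearMap.compL ℝ E E E (S.L v : E →L[ℝ] E)) ∘L
        ((ContinuousLinearMap.compL ℝ E E E).flip ((S.L v).symm : E →L[ℝ] E)) with hcjL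
    have hcj : ∀ T, cjL T = cj (S.L v) T := by
      intro T; ext w; simp [hcjL, cj]
    have h2 : HasFDerivAt (C (S.ψ v) ((S.L v).symm u)) (P (S.ψ v) ((S.L v).symm u))
        ((S.L' v).symm (0 : E')) := by
      rw [map_zero]; exact hP _ _ (S.symm_lt v hu)
    have h3 : HasFDerivAt (fun z => cjL (C (S.ψ v) ((S.L v).symm u) ((S.L' v).symm z)))
        (cjL ∘L (P (S.ψ v) ((S.L v).symm u) ∘L ((S.L' v).symm : E' →L[ℝ] E'))) 0 :=
      cjL.hasFDerivAt.comp (0 : E')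
        (h2.comp (0 : E') ((S.L' v).symm : E' →L[ℝ] E').hasFDerivAt)
    have h4 : C v u =ᶠ[𝓝 0] fun z => cjL (C (S.ψ v) ((S.L v).symm u) ((S.L' v).symm z)) := by
      have e1 : ∀ᶠ z : E' in 𝓝 0, ‖z‖ < S.r := by
        filter_upwards [ball_mem_nhds (0 : E') S.r_pos] with z hz using by simpa using hz
      have e2 : ∀ᶠ z : E' in 𝓝 0, ‖(S.L' v).symm z‖ < S.r := by
        have : Tendsto (fun z : E' => ‖(S.L' v).symm z‖) (𝓝 0) (𝓝 0) := by
          have := ((S.L' v).symm.continuous.norm).tendsto (0 : E')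
          simpa using this
        exact this.eventually_lt_const S.r_pos
      filter_upwards [e1, e2] with z hz1 hz2
      rw [hcj]
      exact heq v u z hu hz1 hz2
    have h5 := h1.unique (h3.congr_of_eventuallyEq h4)
    have h6 := congrArg (fun T : E' →L[ℝ] E →L[ℝ] E => T α) h5
    simp only [ContinuousLinearMap.comp_apply, ContinuousLinearEquiv.coe_coe] at h6
    rw [h6, hcj]
  set c : ℝ := S.r * (‖u‖ + 1)⁻¹ with hc
  have hrp := S.r_pos
  have hcpos : 0 < c := by have := norm_nonneg u; positivity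
  have hcu : ‖c • u‖ < S.r := by
    rw [norm_smul, Real.norm_of_nonneg hcpos.le, hc, mul_assoc]
    have h5 : (‖u‖ + 1)⁻¹ * ‖u‖ < 1 := by
      rw [inv_mul_lt_iff₀ (by positivity)]
      linarith
    calc S.r * ((‖u‖ + 1)⁻¹ * ‖u‖) < S.r * 1 := mul_lt_mul_of_pos_left h5 hrp
      _ = S.r := mul_one _
  have h := small (c • u) hcu α
  rw [map_smul, map_smul, ContinuousLinearMap.smul_apply, map_smul,
    ContinuousLinearMap.smul_apply, cj_smul] at h
  exact smul_right_injective _ hcpos.ne' h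

/-- second order estimate of `C` -/
theorem C_bound {M₃ : ℝ} {P : V → E →L[ℝ] E' →L[ℝ] E →L[ℝ] E}
    (hP : ∀ v u, ‖u‖ < S.r → HasFDerivAt (C v u) (P v u) 0)
    (hz : ∀ v u z, ‖u‖ < S.r → ‖z‖ < S.r → DifferentiableAt ℝ (C v u) z)
    (hl : ∀ v u z, ‖u‖ < S.r → ‖z‖ < S.r → ‖fderiv ℝ (C v u) z - fderiv ℝ (C v u) 0‖ ≤ M₃ * ‖z‖)
    (h0 : ∀ v u, ‖u‖ < S.r → C v u 0 = 1) (v : V) (u : E) (z : E') (hu : ‖u‖ < S.r) (hz1 : ‖z‖ < S.r) :
    ‖C v u z - 1 - P v u z‖ ≤ M₃ * ‖z‖ ^ 2 := by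
  have hconv : Convex ℝ (closedBall (0 : E') ‖z‖) := convex_closedBall _ _
  have hbd : ∀ w ∈ closedBall (0 : E') ‖z‖, ‖fderiv ℝ (C v u) w - P v u‖ ≤ M₃ * ‖z‖ := by
    intro w hw
    rw [mem_closedBall_zero_iff] at hw
    rw [← (hP v u hu).fderiv]
    have h1 := hl v u w hu (hw.trans_lt hz1)
    have hM : 0 ≤ M₃ ∨ M₃ < 0 := le_or_gt _ _
    rcases hM with hM | hM
    · exact h1.trans (mul_le_mul_of_nonneg_left hw hM)
    · have h2 : ‖w‖ = 0 := by
        by_contra hne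
        have : 0 < ‖w‖ := lt_of_le_of_ne (norm_nonneg _) (Ne.symm hne)
        have h3 := (norm_nonneg _).trans h1
        nlinarith
      have h4 : ‖z‖ = 0 := by
        by_contra hne
        have hpos : 0 < ‖z‖ := lt_of_le_of_ne (norm_nonneg _) (Ne.symm hne)
        have h3 := (norm_nonneg _).trans (hl v u z hu hz1)
        nlinarith
      rw [h4]
      rw [h2] at h1
      simpa using h1
  have hdiff : ∀ w ∈ closedBall (0 : E') ‖z‖, HasFDerivWithinAt (fun w => C v u w - P v u w)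
      (fderiv ℝ (C v u) w - P v u) (closedBall (0 : E') ‖z‖) w := by
    intro w hw
    rw [mem_closedBall_zero_iff] at hw
    exact ((hz v u w hu (hw.trans_lt hz1)).hasFDerivAt.sub (P v u).hasFDerivAt).hasFDerivWithinAt
  have h := hconv.norm_image_sub_le_of_norm_hasFDerivWithin_le hdiff hbd
    (mem_closedBall_self (norm_nonneg z)) (mem_closedBall_zero_iff.mpr le_rfl)
  rw [map_zero, sub_zero, h0 v u hu, sub_zero] at h
  have e : C v u z - 1 - P v u z = C v u z - P v u z - 1 := by abel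
  rw [e]
  refine h.trans (le_of_eq ?_)
  ring

/-- expansion of the holonomy `h v z u` -/
theorem h_bound {M₃ : ℝ} {P : V → E →L[ℝ] E' →L[ℝ] E →L[ℝ] E}
    (hC : ∀ v u z, ‖u‖ < S.r → ‖z‖ < S.r → ‖C v u z - 1 - P v u z‖ ≤ M₃ * ‖z‖ ^ 2)
    {h : V → E' → E → E} (h00 : ∀ v z, ‖z‖ < S.r → h v z 0 = 0)
    (hd : ∀ v z u, ‖z‖ < S.r → ‖u‖ < S.r → HasFDerivAt (h v z) (C v u z) u)
    (v : V) (z : E') (u : E) (hz : ‖z‖ < S.r) (hu : ‖u‖ < S.r) :
    ‖h v z u - u - (2 : ℝ)⁻¹ • P v u z u‖ ≤ M₃ * ‖z‖ ^ 2 * ‖u‖ := by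
  set g : ℝ → E := fun s => h v z (s • u) - s • u - (2 : ℝ)⁻¹ • (s ^ 2) • P v u z u with hg
  have hs : ∀ s ∈ Icc (0 : ℝ) 1, ‖s • u‖ < S.r := by
    intro s hs
    rw [norm_smul, Real.norm_of_nonneg hs.1]
    calc s * ‖u‖ ≤ 1 * ‖u‖ := mul_le_mul_of_nonneg_right hs.2 (norm_nonneg _)
      _ < S.r := by linarith
  have hgd : ∀ s ∈ Icc (0 : ℝ) 1, HasDerivAt g (C v (s • u) z u - u - s • P v u z u) s := by
    intro s hs'
    have h1 : HasDerivAt (fun s : ℝ => s • u) u s := by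
      simpa using (hasDerivAt_id s).smul_const u
    have h2 := (hd v z (s • u) hz (hs s hs')).comp_hasDerivAt s h1
    have h3 : HasDerivAt (fun s : ℝ => (2 : ℝ)⁻¹ • (s ^ 2) • P v u z u) (s • P v u z u) s := by
      have h4 := (((hasDerivAt_id s).pow 2).smul_const (P v u z u)).const_smul (2 : ℝ)⁻¹
      simp only [id_eq] at h4
      refine h4.congr_deriv ?_
      rw [smul_smul]
      congr 1
      norm_num
      ring
    exact (h2.sub h1).sub h3
  have hb : ∀ s ∈ Icc (0 : ℝ) 1, ‖C v (s • u) z u - u - s • P v u z u‖ ≤ M₃ * ‖z‖ ^ 2 * ‖u‖ := by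
    intro s hs'
    have e : C v (s • u) z u - u - s • P v u z u = (C v (s • u) z - 1 - P v (s • u) z) u := by
      simp
    rw [e]
    exact (ContinuousLinearMap.le_opNorm _ _).trans
      (mul_le_mul_of_nonneg_right (hC v (s • u) z (hs s hs') hz) (norm_nonneg _))
  have := (convex_Icc (0 : ℝ) 1).norm_image_sub_le_of_norm_hasDerivWithin_le
    (fun s hs' => (hgd s hs').hasDerivWithinAt) hb (left_mem_Icc.mpr zero_le_one)
    (right_mem_Icc.mpr zero_le_one)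
  simpa [hg, h00 v z hz] using this

/-- the derivative of the holonomy in `z` at `z = 0`, local form -/
theorem h_deriv_local {M₃ : ℝ} {P : V → E →L[ℝ] E' →L[ℝ] E →L[ℝ] E}
    (hC : ∀ v u z, ‖u‖ < S.r → ‖z‖ < S.r → ‖C v u z - 1 - P v u z‖ ≤ M₃ * ‖z‖ ^ 2)
    {h : V → E' → E → E} (h00 : ∀ v z, ‖z‖ < S.r → h v z 0 = 0)
    (hd : ∀ v z u, ‖z‖ < S.r → ‖u‖ < S.r → HasFDerivAt (h v z) (C v u z) u)
    (v : V) (u : E) (hu : ‖u‖ < S.r) :
    HasFDerivAt (fun z => h v z u) ((2 : ℝ)⁻¹ • (P v u).flip u) 0 := by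
  have h0 : h v 0 u = u := by
    have := h_bound hC h00 hd v 0 u (by simpa using S.r_pos) hu
    simpa [sub_eq_zero] using this
  rw [hasFDerivAt_iff_isLittleO_nhds_zero]
  refine Asymptotics.IsBigO.trans_isLittleO (g := fun z : E' => ‖z‖ ^ 2) ?_ ?_
  · refine Asymptotics.IsBigO.of_bound (|M₃| * ‖u‖) ?_
    filter_upwards [ball_mem_nhds (0 : E') S.r_pos] with z hz
    have hz' : ‖z‖ < S.r := by simpa using hz
    have hb := h_bound hC h00 hd v z u hz' hu
    rw [zero_add, h0]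
    simp only [ContinuousLinearMap.smul_apply, ContinuousLinearMap.flip_apply]
    refine hb.trans ?_
    rw [Real.norm_of_nonneg (by positivity)]
    have h1 := le_abs_self M₃
    have h2 : 0 ≤ ‖z‖ ^ 2 * ‖u‖ := by positivity
    nlinarith [mul_le_mul_of_nonneg_right h1 h2]
  · have := Asymptotics.isLittleO_norm_pow_id (E' := E') one_lt_two
    exact this

/-- the derivative of the holonomy in `z` at `z = 0`, on the whole leaf -/
theorem h_deriv {M₃ : ℝ} {P : V → E →L[ℝ] E' →L[ℝ] E →L[ℝ] E} (heq : S.Equi C)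
    (hP : ∀ v u, ‖u‖ < S.r → HasFDerivAt (C v u) (P v u) 0)
    (hC : ∀ v u z, ‖u‖ < S.r → ‖z‖ < S.r → ‖C v u z - 1 - P v u z‖ ≤ M₃ * ‖z‖ ^ 2)
    {h : V → E' → E → E} (h00 : ∀ v z, ‖z‖ < S.r → h v z 0 = 0)
    (hd : ∀ v z u, ‖z‖ < S.r → ‖u‖ < S.r → HasFDerivAt (h v z) (C v u z) u)
    (hh : ∀ v u, ∀ᶠ z in 𝓝 (0 : E'),
      h v z u = S.L v (h (S.ψ v) ((S.L' v).symm z) ((S.L v).symm u)))
    (v : V) (u : E) : HasFDerivAt (fun z => h v z u) ((2 : ℝ)⁻¹ • (P v u).flip u) 0 := by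
  have key : ∀ T : ℕ, ∀ v u, ‖u‖ * S.lam ^ T < S.r →
      HasFDerivAt (fun z => h v z u) ((2 : ℝ)⁻¹ • (P v u).flip u) 0 := by
    intro T
    induction T with
    | zero =>
      intro v u hu
      exact h_deriv_local hC h00 hd v u (by simpa using hu)
    | succ T ih =>
      intro v u hu
      have hlp := S.lam_pos
      have hu' : ‖(S.L v).symm u‖ * S.lam ^ T < S.r := by
        have h1 : ‖(S.L v).symm u‖ ≤ S.lam * ‖u‖ :=
          (((S.L v).symm : E →L[ℝ] E).le_opNorm u).trans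
            (mul_le_mul_of_nonneg_right (S.norm_L_symm v) (norm_nonneg _))
        calc ‖(S.L v).symm u‖ * S.lam ^ T ≤ S.lam * ‖u‖ * S.lam ^ T := by gcongr
          _ = ‖u‖ * S.lam ^ (T + 1) := by rw [pow_succ]; ring
          _ < S.r := hu
      have h1 := ih (S.ψ v) ((S.L v).symm u) hu'
      have h2 : HasFDerivAt (fun z => h (S.ψ v) z ((S.L v).symm u))
          ((2 : ℝ)⁻¹ • (P (S.ψ v) ((S.L v).symm u)).flip ((S.L v).symm u))
          ((S.L' v).symm (0 : E')) := by rw [map_zero]; exact h1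
      have h3 := (S.L v : E →L[ℝ] E).hasFDerivAt.comp (0 : E')
        (h2.comp (0 : E') ((S.L' v).symm : E' →L[ℝ] E').hasFDerivAt)
      have h4 := h3.congr_of_eventuallyEq (hh v u)
      refine h4.congr_fderiv ?_
      ext α
      have e := P_equi heq hP v u α
      simp only [ContinuousLinearMap.comp_apply, ContinuousLinearMap.smul_apply,
        ContinuousLinearMap.flip_apply, ContinuousLinearEquiv.coe_coe, map_smul]
      rw [e]
      simp [cj]
  obtain ⟨T, hT⟩ : ∃ T : ℕ, ‖u‖ * S.lam ^ T < S.r := by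
    have h1 : Tendsto (fun T : ℕ => ‖u‖ * S.lam ^ T) atTop (𝓝 0) := by
      simpa using (tendsto_pow_atTop_nhds_zero_of_lt_one S.lam_pos.le S.lam_lt_one).const_mul ‖u‖
    exact (h1.eventually_lt_const S.r_pos).exists
  exact key T v u hT

/-- **parallel along the stable leaves**: a small equivariant difference vanishes -/
theorem par_zero (hψ : Function.Surjective S.ψ) {K : ℝ}
    {Δ : V → E' → E →L[ℝ] E' →L[ℝ] E →L[ℝ] E} (hb : ∀ v z, ‖z‖ < S.r → ‖Δ v z‖ ≤ K * ‖z‖)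
    (hΔ : ∀ v z, ‖z‖ < S.r → ∀ u α, Δ (S.ψ v) z u α =
      cj (S.L v).symm (Δ v (S.L' v z) (S.L v u) (S.L' v α))) (v : V) (z : E') (hz : ‖z‖ < S.r) :
    Δ v z = 0 := by
  have hlp := S.lam_pos
  have hLp : 0 < S.Lam := one_pos.trans S.one_lt_Lam
  have hL' : ∀ (w : V) (x : E'), ‖S.L' w x‖ ≤ S.lam * ‖x‖ := fun w x =>
    ((S.L' w : E' →L[ℝ] E').le_opNorm x).trans
      (mul_le_mul_of_nonneg_right (S.norm_L' w) (norm_nonneg _))
  have hL : ∀ (w : V) (x : E), ‖S.L w x‖ ≤ S.Lam * ‖x‖ := fun w x =>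
    ((S.L w : E →L[ℝ] E).le_opNorm x).trans
      (mul_le_mul_of_nonneg_right (S.norm_L w) (norm_nonneg _))
  have key : ∀ T : ℕ, ∀ v z, ‖z‖ < S.r → ‖Δ v z‖ ≤ (S.Lam ^ 2 * S.lam ^ 3) ^ T * (|K| * ‖z‖) := by
    intro T
    induction T with
    | zero =>
      intro v z hz
      rw [pow_zero, one_mul]
      exact (hb v z hz).trans (mul_le_mul_of_nonneg_right (le_abs_self _) (norm_nonneg _))
    | succ T ih =>
      intro v z hz
      obtain ⟨w, rfl⟩ := hψ v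
      have hz1 : ‖S.L' w z‖ ≤ S.lam * ‖z‖ := hL' w z
      have hz2 : ‖S.L' w z‖ < S.r := by
        have : S.lam * ‖z‖ ≤ 1 * ‖z‖ := mul_le_mul_of_nonneg_right S.lam_lt_one.le (norm_nonneg _)
        linarith
      have ih' := ih w (S.L' w z) hz2
      have hr : 0 ≤ (S.Lam ^ 2 * S.lam ^ 3) ^ T := by positivity
      refine ContinuousLinearMap.opNorm_le_bound _ (by positivity) fun u => ?_
      refine ContinuousLinearMap.opNorm_le_bound _ (by positivity) fun α => ?_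
      rw [hΔ w z hz u α]
      have hsymm : (S.L w).symm.symm = S.L w := rfl
      have h1 : ‖cj (S.L w).symm (Δ w (S.L' w z) (S.L w u) (S.L' w α))‖ ≤
          S.lam * S.Lam * ‖Δ w (S.L' w z) (S.L w u) (S.L' w α)‖ :=
        norm_cj_le (S.norm_L_symm w) (by rw [hsymm]; exact S.norm_L w) _
      have h2 : ‖Δ w (S.L' w z) (S.L w u) (S.L' w α)‖ ≤
          ‖Δ w (S.L' w z)‖ * ‖S.L w u‖ * ‖S.L' w α‖ := by
        refine (ContinuousLinearMap.le_opNorm _ _).trans ?_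
        exact mul_le_mul_of_nonneg_right (ContinuousLinearMap.le_opNorm _ _) (norm_nonneg _)
      calc ‖cj (S.L w).symm (Δ w (S.L' w z) (S.L w u) (S.L' w α))‖
          ≤ S.lam * S.Lam * (‖Δ w (S.L' w z)‖ * ‖S.L w u‖ * ‖S.L' w α‖) :=
            h1.trans (mul_le_mul_of_nonneg_left h2 (by positivity))
        _ ≤ S.lam * S.Lam * (((S.Lam ^ 2 * S.lam ^ 3) ^ T * (|K| * (S.lam * ‖z‖)))
            * (S.Lam * ‖u‖) * (S.lam * ‖α‖)) := by
            have h3 : ‖Δ w (S.L' w z)‖ ≤ (S.Lam ^ 2 * S.lam ^ 3) ^ T * (|K| * (S.lam * ‖z‖)) :=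
              ih'.trans (mul_le_mul_of_nonneg_left
                (mul_le_mul_of_nonneg_left hz1 (abs_nonneg _)) hr)
            have h4 := hL w u
            have h5 := hL' w α
            gcongr
        _ = (S.Lam ^ 2 * S.lam ^ 3) ^ (T + 1) * (|K| * ‖z‖) * ‖u‖ * ‖α‖ := by ring
  have hlim : Tendsto (fun T : ℕ => (S.Lam ^ 2 * S.lam ^ 3) ^ T * (|K| * ‖z‖)) atTop (𝓝 0) := by
    have h1 : Tendsto (fun T : ℕ => (S.Lam ^ 2 * S.lam ^ 3) ^ T) atTop (𝓝 0) :=
      tendsto_pow_atTop_nhds_zero_of_lt_one (by positivity) S.weight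
    simpa using h1.mul_const (|K| * ‖z‖)
  have : ‖Δ v z‖ ≤ 0 := ge_of_tendsto' hlim fun T => key T v z hz
  exact norm_le_zero_iff.mp this

end Cocycle

end Sep

end Vale.Agent.P207.H267
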